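import Mathlib

/-! One-dimensional step analysis for the snapping construction. -/

set_option autoImplicit false

namespace Crest.Agent.R92

open Real

/-- `b` is an allowed next value (with new error scale `e'`): below all upper bounds, and either a
special value (snap) or far from every special value (free). -/
def Al (Sp Ub : Set ℝ) (Γ e b e' : ℝ) : Prop :=
  (∀ a ∈ Ub, b ≤ a) ∧ ((b ∈ Sp ∧ e' = 3 * Γ) ∨ ((∀ s ∈ Sp, Γ ≤ |b - s|) ∧ e' = e))

lemma Al.le {Sp Ub : Set ℝ} {Γ e b e' : ℝ} (h : Al Sp Ub Γ e b e') (he : 0 ≤ e) (hΓ : e ≤ Γ) :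
    e ≤ e' := by
  rcases h.2 with ⟨_, h⟩ | ⟨_, h⟩ <;> linarith

lemma mul_exp_le {n e y m : ℝ} (hn : n ≤ e) (h : y + e ≤ m) : n * exp y ≤ exp m := by
  have h1 : n ≤ exp e := by linarith [add_one_le_exp e]
  calc n * exp y ≤ exp e * exp y := by gcongr
    _ = exp (y + e) := by rw [← exp_add, add_comm]
    _ ≤ exp m := exp_le_exp.2 h

lemma step_lower {Sp Ub : Set ℝ} {Γ e b e' n X m η : ℝ} (hfin : Sp.Finite) (hUb : Ub ⊆ Sp)
    (hgap : ∀ s ∈ Sp, ∀ s' ∈ Sp, s ≠ s' → 2 * Γ ≤ |s - s'|)
    (he : 3 ≤ e) (hΓ : e ≤ Γ) (hn : n ≤ e) (hal : Al Sp Ub Γ e b e')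
    (hstar : ∀ b' e'', Al Sp Ub Γ e b' e'' →
      (b' - b) * X + exp (b - e') ≤ n * exp (b' - e'') + η)
    (hX : exp m ≤ X) (hη : η ≤ exp m) (hprev : ∀ a ∈ Ub, m - e ≤ a) : m - e' ≤ b := by
  by_contra hlt
  push Not at hlt
  have hm := exp_pos m
  -- a generic contradiction
  have key : ∀ b' e'', Al Sp Ub Γ e b' e'' → b + 3 ≤ b' → b' - e'' + e ≤ m → False := by
    intro b' e'' h h1 h2
    have h3 := hstar b' e'' h
    have h4 := mul_exp_le hn h2
    have h5 : 3 * exp m ≤ (b' - b) * X := by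
      apply mul_le_mul (by linarith) hX hm.le (by linarith)
    have := exp_pos (b - e')
    linarith
  obtain ⟨hub, hcase⟩ := hal
  rcases hcase with ⟨hb, he'⟩ | ⟨hb, he'⟩
  · -- snap
    by_cases htie : b ∈ Ub
    · have := hprev b htie
      linarith
    · apply key (b + Γ) e
      · refine ⟨fun a ha => ?_, Or.inr ⟨fun s hs => ?_, rfl⟩⟩
        · have h1 := hub a ha
          have h2 : b ≠ a := fun h => htie (h ▸ ha)
          have h3 := hgap b hb a (hUb ha) h2
          rw [abs_sub_comm, abs_of_nonneg (by linarith)] at h3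
          linarith
        · by_cases hs' : b = s
          · rw [← hs']; simp only [add_sub_cancel_left]; rw [abs_of_nonneg (by linarith)]
          · have h3 := hgap b hb s hs hs'
            have h4 : |b - s| ≤ |b + Γ - s| + |Γ| := by
              have := abs_sub (b + Γ - s) Γ
              have e1 : b + Γ - s - Γ = b - s := by ring
              rwa [e1] at this
            rw [abs_of_nonneg (by linarith : 0 ≤ Γ)] at h4
            linarith
      · linarith
      · linarith
  · -- free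
    have hub' : ∀ a ∈ Ub, b + Γ ≤ a := by
      intro a ha
      have h1 := hub a ha
      have h2 := hb a (hUb ha)
      rw [abs_sub_comm, abs_of_nonneg (by linarith)] at h2
      linarith
    by_cases hfree : ∀ s ∈ Sp, Γ ≤ |b + 3 - s|
    · apply key (b + 3) e
      · exact ⟨fun a ha => by linarith [hub' a ha], Or.inr ⟨hfree, rfl⟩⟩
      · linarith
      · linarith
    · push Not at hfree
      obtain ⟨s, hs, hs'⟩ := hfree
      have h1 := hb s hs
      have h2 : b < s := by
        by_contra h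
        push Not at h
        rw [abs_of_nonneg (by linarith)] at h1 hs'
        linarith
      have hfin' : (Sp ∩ Set.Ioi b).Finite := hfin.subset Set.inter_subset_left
      obtain ⟨s0, hs0, hmin⟩ := Set.exists_min_image (Sp ∩ Set.Ioi b) id hfin' ⟨s, hs, h2⟩
      have h3 : s0 ≤ s := hmin s ⟨hs, h2⟩
      have h4 : b < s0 := hs0.2
      have h5 := hb s0 hs0.1
      rw [abs_sub_comm, abs_of_nonneg (by linarith)] at h5
      have h6 := (abs_lt.1 hs').1
      apply key s0 (3 * Γ)
      · refine ⟨fun a ha => ?_, Or.inl ⟨hs0.1, rfl⟩⟩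
        exact hmin a ⟨hUb ha, by have := hub' a ha; simp only [Set.mem_Ioi]; linarith⟩
      · linarith
      · linarith

lemma step_upper {Sp Ub : Set ℝ} {Γ e b e' n X m η K : ℝ} (hfin : Sp.Finite) (hUb : Ub ⊆ Sp)
    (he : 3 ≤ e) (hΓ : e ≤ Γ) (hn1 : 1 ≤ n) (hK : Γ ≤ K * e) (hnK : 2 * n * (K + 4) < e)
    (hal : Al Sp Ub Γ e b e')
    (hstar : ∀ b' e'', Al Sp Ub Γ e b' e'' →
      (b' - b) * X + exp (b - e') ≤ n * exp (b' - e'') + η)
    (hX0 : 0 ≤ X) (hX : X ≤ n * exp m) (hη : η ≤ exp m) : b ≤ m + 2 * e' := by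
  by_contra hlt
  push Not at hlt
  have hm := exp_pos m
  have hee' : e ≤ e' := hal.le (by linarith) hΓ
  have hub := hal.1
  -- a competitor close to `m`
  obtain ⟨b', e'', hal', h1, h2⟩ : ∃ b' e'', Al Sp Ub Γ e b' e'' ∧ m - Γ ≤ b' ∧ b' - e'' ≤ m := by
    by_cases hfree : ∀ s ∈ Sp, Γ ≤ |m - s|
    · exact ⟨m, e, ⟨fun a ha => by linarith [hub a ha], Or.inr ⟨hfree, rfl⟩⟩, by linarith,
        by linarith⟩
    · push Not at hfree
      obtain ⟨s, hs, hs'⟩ := hfree
      have hs1 := (abs_lt.1 hs').1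
      have hs2 := (abs_lt.1 hs').2
      have hfin' : (Sp ∩ Set.Ioi (m - Γ)).Finite := hfin.subset Set.inter_subset_left
      obtain ⟨s0, hs0, hmin⟩ := Set.exists_min_image (Sp ∩ Set.Ioi (m - Γ)) id hfin'
        ⟨s, hs, by simp only [Set.mem_Ioi]; linarith⟩
      have h3 : s0 ≤ s := hmin s ⟨hs, by simp only [Set.mem_Ioi]; linarith⟩
      have h4 : m - Γ < s0 := hs0.2
      refine ⟨s0, 3 * Γ, ⟨fun a ha => ?_, Or.inl ⟨hs0.1, rfl⟩⟩, h4.le, by linarith⟩
      exact hmin a ⟨hUb ha, by have := hub a ha; simp only [Set.mem_Ioi]; linarith⟩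
  have h3 := hstar b' e'' hal'
  set t := b - m - e' with ht
  have ht1 : e' < t := by linarith
  have hK0 : 0 ≤ K := by
    by_contra h
    push Not at h
    nlinarith
  have h4 : exp (b' - e'') ≤ exp m := exp_le_exp.2 h2
  have h5 : exp (b - e') = exp t * exp m := by rw [← exp_add]; congr 1; ring
  have h6 : (b - b') * X ≤ (t + e' + Γ) * (n * exp m) := by
    calc (b - b') * X ≤ (t + e' + Γ) * X := by
          apply mul_le_mul_of_nonneg_right _ hX0; linarith
      _ ≤ (t + e' + Γ) * (n * exp m) := by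
          apply mul_le_mul_of_nonneg_left hX; linarith
  have h7 : n * exp (b' - e'') ≤ n * exp m := by gcongr
  have h8 : exp t * exp m ≤ ((t + e' + Γ) * n + n + 1) * exp m := by nlinarith
  have h9 : exp t ≤ (t + e' + Γ) * n + n + 1 := le_of_mul_le_mul_right h8 hm
  have h10 : Γ ≤ K * t := hK.trans (by apply mul_le_mul_of_nonneg_left _ hK0; linarith)
  have h11 : t ^ 2 / 2 ≤ exp t := by
    have := Real.quadratic_le_exp_of_nonneg (x := t) (by linarith)
    linarith
  have h12 : (t + e' + Γ) * n + n + 1 ≤ n * (K + 4) * t := by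
    have a1 : (t + e' + Γ) * n ≤ (2 * t + K * t) * n := by
      apply mul_le_mul_of_nonneg_right _ (by linarith); linarith
    have a2 : n ≤ n * t := by nlinarith
    have a3 : 1 ≤ n * t := by nlinarith
    nlinarith
  have h13 : 2 * n * (K + 4) * t < t * t := by
    apply mul_lt_mul_of_pos_right _ (by linarith); linarith
  nlinarith

end Crest.Agent.R92
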