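import Mathlib
import Crest.Agent.R92.Step

/-! The snapping tree: a family of affine functions whose near-maximisers at `x` are close to
`log x` and sign-compatible with it. -/

set_option autoImplicit false

namespace Crest.Agent.R92

open Real Finset

variable {d : ℕ}

/-- Vectors whose pairing with the current partial vector gives the special values. -/
def specVecs (D : Set (Fin d → ℝ)) : Set (Fin d → ℝ) :=
  {w | (∃ v ∈ D, ∃ i, w = (-(v i)⁻¹) • v) ∨ ∃ i, w = Pi.single i 1}

/-- Graded closure of a set of vectors under elimination. -/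
def clos (D : Set (Fin d → ℝ)) : ℕ → Set (Fin d → ℝ)
  | 0 => D
  | r + 1 => clos D r ∪ {w | ∃ a ∈ specVecs (clos D r), ∃ b ∈ specVecs (clos D r), w = a - b}

lemma specVecs_finite {D : Set (Fin d → ℝ)} (hD : D.Finite) : (specVecs D).Finite := by
  have h1 : ((fun p : (Fin d → ℝ) × Fin d => (-(p.1 p.2)⁻¹) • p.1) '' (D ×ˢ Set.univ)).Finite :=
    (hD.prod Set.finite_univ).image _
  have h2 : (Set.range (fun i : Fin d => (Pi.single i 1 : Fin d → ℝ))).Finite := Set.finite_range _
  refine (h1.union h2).subset ?_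
  rintro w (⟨v, hv, i, rfl⟩ | ⟨i, rfl⟩)
  · exact Or.inl ⟨(v, i), ⟨hv, trivial⟩, rfl⟩
  · exact Or.inr ⟨i, rfl⟩

lemma clos_finite {D : Set (Fin d → ℝ)} (hD : D.Finite) : ∀ r, (clos D r).Finite
  | 0 => hD
  | r + 1 => by
    have h := specVecs_finite (clos_finite hD r)
    refine (clos_finite hD r).union (((h.prod h).image (fun p => p.1 - p.2)).subset ?_)
    rintro w ⟨a, ha, b, hb, rfl⟩
    exact ⟨(a, b), ⟨ha, hb⟩, rfl⟩

lemma clos_mono (D : Set (Fin d → ℝ)) : Monotone (clos D) :=
  monotone_nat_of_le_succ fun _ => Set.subset_union_left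

lemma single_mem_specVecs (D : Set (Fin d → ℝ)) (i : Fin d) :
    (Pi.single i 1 : Fin d → ℝ) ∈ specVecs D := Or.inr ⟨i, rfl⟩

lemma sub_mem_clos {D : Set (Fin d → ℝ)} {r : ℕ} {a b : Fin d → ℝ}
    (ha : a ∈ specVecs (clos D r)) (hb : b ∈ specVecs (clos D r)) : a - b ∈ clos D (r + 1) :=
  Or.inr ⟨a, ha, b, hb, rfl⟩

/-- The scale ratios. -/
noncomputable def lam (μ L : ℝ) : ℕ → ℝ
  | 0 => L
  | r + 1 => 3 * lam μ L r ^ 2 / μ ^ 2

/-- Parameters of the construction. -/
structure Par (d : ℕ) where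
  I : Finset (Fin d)
  D : Set (Fin d → ℝ)
  μ : ℝ
  L : ℝ
  T : ℝ
  hD : D.Finite
  μ_pos : 0 < μ
  μ_le : μ ≤ 1
  L_ge : 4 ≤ L
  T_ge : 3 ≤ T
  hμ : ∀ v ∈ clos D (I.card + 1), ∀ i, v i ≠ 0 → μ ≤ |v i|
  hT : 2 * (I.card : ℝ) * (lam μ L I.card / μ + 4) < T

namespace Par

variable (P : Par d)

/-- scale ratio -/
noncomputable def Λ (r : ℕ) : ℝ := lam P.μ P.L r

/-- exclusion radius -/
noncomputable def Γ (r : ℕ) (e : ℝ) : ℝ := P.Λ r * e / P.μ

/-- special values -/
def spec (r : ℕ) (u : Fin d → ℝ) : Set ℝ := (fun w => u ⬝ᵥ w) '' specVecs (clos P.D (r + 1))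

/-- allowed step -/
def Allowed (r : ℕ) (A : Finset (Fin d)) (u : Fin d → ℝ) (e b e' : ℝ) : Prop :=
  Al (P.spec r u) (u '' (A : Set (Fin d))) (P.Γ r e) e b e'

/-- Nodes of the tree. -/
inductive Node : ℕ → Finset (Fin d) → (Fin d → ℝ) → ℝ → ℝ → Prop
  | root : Node P.I.card ∅ 0 P.T 0
  | step {r : ℕ} {A : Finset (Fin d)} {u : Fin d → ℝ} {e c : ℝ} {i : Fin d} {b e' : ℝ} :
      Node (r + 1) A u e c → i ∈ P.I → i ∉ A → P.Allowed r A u e b e' →
      Node r (insert i A) (Function.update u i b) e' (c + exp (b - e'))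

lemma Λ_succ (r : ℕ) : P.Λ (r + 1) = 3 * P.Λ r ^ 2 / P.μ ^ 2 := rfl

lemma Λ_ge (r : ℕ) : P.L ≤ P.Λ r ∧ P.Λ r ≤ P.Λ (r + 1) := by
  have hμ := P.μ_pos
  have hμ1 := P.μ_le
  have hL := P.L_ge
  have aux : ∀ x : ℝ, 1 ≤ x → x ≤ 3 * x ^ 2 / P.μ ^ 2 := by
    intro x hx
    rw [le_div_iff₀ (by positivity)]
    have : P.μ ^ 2 ≤ 1 := by nlinarith
    nlinarith
  induction r with
  | zero => exact ⟨le_rfl, aux _ (by show 1 ≤ P.L; linarith)⟩
  | succ r ih => exact ⟨ih.1.trans ih.2, aux _ (by linarith [ih.1, ih.2])⟩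

lemma Λ_mono : Monotone P.Λ := monotone_nat_of_le_succ fun r => (P.Λ_ge r).2

lemma four_le_Λ (r : ℕ) : 4 ≤ P.Λ r := P.L_ge.trans (P.Λ_ge r).1

lemma le_Γ (r : ℕ) {e : ℝ} (he : 0 ≤ e) : e ≤ P.Γ r e := by
  have hμ := P.μ_pos
  have hμ1 := P.μ_le
  have := P.four_le_Λ r
  unfold Γ
  rw [le_div_iff₀ hμ]
  nlinarith

lemma spec_finite (r : ℕ) (u : Fin d → ℝ) : (P.spec r u).Finite :=
  (specVecs_finite (clos_finite P.hD _)).image _

lemma coord_mem_spec (r : ℕ) (u : Fin d → ℝ) (i : Fin d) : u i ∈ P.spec r u :=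
  ⟨Pi.single i 1, single_mem_specVecs _ i, by simp⟩

lemma image_subset_spec (r : ℕ) (u : Fin d → ℝ) (A : Finset (Fin d)) :
    u '' (A : Set (Fin d)) ⊆ P.spec r u := by
  rintro _ ⟨i, _, rfl⟩
  exact P.coord_mem_spec r u i

/-- the uniform growth factor of the error scale -/
noncomputable def M : ℝ := 3 * P.Λ P.I.card / P.μ

lemma one_le_M : 1 ≤ P.M := by
  have hμ := P.μ_pos
  have hμ1 := P.μ_le
  have := P.four_le_Λ P.I.card
  unfold M
  rw [le_div_iff₀ hμ]
  nlinarith

variable {P}

lemma update_dot {u : Fin d → ℝ} {i : Fin d} (hi : u i = 0) (b : ℝ) (v : Fin d → ℝ) :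
    Function.update u i b ⬝ᵥ v = u ⬝ᵥ v + b * v i := by
  have : Function.update u i b = u + Pi.single i b := by
    funext j
    by_cases h : j = i
    · subst h; simp [hi]
    · simp [h]
  rw [this, add_dotProduct, single_dotProduct]

lemma Node.basic {r : ℕ} {A : Finset (Fin d)} {u : Fin d → ℝ} {e c : ℝ} (h : P.Node r A u e c) :
    A ⊆ P.I ∧ r + A.card = P.I.card ∧ (∀ i ∉ A, u i = 0) ∧ P.T ≤ e ∧
      e * P.M ^ r ≤ P.T * P.M ^ P.I.card ∧ 0 ≤ c ∧ c ≤ ∑ i ∈ A, exp (u i) ∧
      ∀ i ∈ A, exp (u i - e) ≤ c := by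
  induction h with
  | root => simp
  | @step r A u e c i b e' _ hi hiA hal ih =>
    obtain ⟨h1, h2, h3, h4, h5, h6, h7, h8⟩ := ih
    have hT := P.T_ge
    have he : 0 ≤ e := by linarith
    have hee' : e ≤ e' := hal.le he (P.le_Γ r he)
    have hM := P.one_le_M
    refine ⟨insert_subset hi h1, by rw [card_insert_of_notMem hiA]; omega, ?_, by linarith, ?_,
      by positivity, ?_, ?_⟩
    · intro j hj
      rw [mem_insert, not_or] at hj
      rw [Function.update_of_ne hj.1, h3 j hj.2]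
    · have : e' ≤ e * P.M := by
        rcases hal.2 with ⟨_, h⟩ | ⟨_, h⟩
        · rw [h]
          unfold Γ M
          have hμ := P.μ_pos
          have : P.Λ r ≤ P.Λ P.I.card := P.Λ_mono (by omega)
          rw [← mul_div_assoc, ← mul_div_assoc]
          apply div_le_div_of_nonneg_right _ hμ.le
          nlinarith
        · rw [h]; nlinarith
      calc e' * P.M ^ r ≤ e * P.M * P.M ^ r := by gcongr
        _ = e * P.M ^ (r + 1) := by ring
        _ ≤ _ := h5
    · rw [sum_insert hiA, Function.update_self]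
      have : ∑ j ∈ A, exp (Function.update u i b j) = ∑ j ∈ A, exp (u j) := by
        apply sum_congr rfl
        intro j hj
        rw [Function.update_of_ne (by rintro rfl; exact hiA hj)]
      rw [this]
      have : exp (b - e') ≤ exp b := exp_le_exp.2 (by linarith)
      linarith
    · intro j hj
      rcases mem_insert.1 hj with rfl | hj'
      · rw [Function.update_self]; linarith
      · rw [Function.update_of_ne (by rintro rfl; exact hiA hj')]
        have : exp (u j - e') ≤ exp (u j - e) := exp_le_exp.2 (by linarith)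
        linarith [h8 j hj', exp_pos (b - e')]

lemma Node.gap {r : ℕ} {A : Finset (Fin d)} {u : Fin d → ℝ} {e c : ℝ} (h : P.Node r A u e c) :
    ∀ v ∈ clos P.D (r + 1), u ⬝ᵥ v = 0 ∨ P.Λ r * e ≤ |u ⬝ᵥ v| := by
  induction h with
  | root => intro v _; left; simp
  | @step r A u e c i b e' hn hi hiA hal ih =>
    obtain ⟨h1, h2, h3, h4, -⟩ := hn.basic
    have hT := P.T_ge
    have he : 0 ≤ e := by linarith
    have hμ := P.μ_pos
    have hμ1 := P.μ_le
    have hΛ := P.four_le_Λ r
    have hΛ' := (P.Λ_ge r).2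
    -- the new scale is dominated by the old gap
    have hsc : P.Λ r * e' ≤ P.μ * (P.Λ (r + 1) * e) := by
      rcases hal.2 with ⟨_, h⟩ | ⟨_, h⟩
      · rw [h, P.Λ_succ]
        unfold Γ
        apply le_of_eq
        field_simp
      · rw [h, P.Λ_succ]
        have : P.μ * (3 * P.Λ r ^ 2 / P.μ ^ 2 * e) = (3 * P.Λ r / P.μ) * (P.Λ r * e) := by
          field_simp
        rw [this]
        have h5 : 1 ≤ 3 * P.Λ r / P.μ := by rw [le_div_iff₀ hμ]; nlinarith
        have h6 : 0 ≤ P.Λ r * e := by positivity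
        nlinarith
    have hpos : 0 ≤ P.Λ (r + 1) * e := by have := P.four_le_Λ (r + 1); positivity
    intro v hv
    rw [update_dot (h3 i hiA)]
    by_cases hvi : v i = 0
    · rw [hvi, mul_zero, add_zero]
      rcases ih v (clos_mono _ (Nat.le_succ _) hv) with h | h
      · exact Or.inl h
      · right; nlinarith
    · have hw : (-(v i)⁻¹) • v ∈ specVecs (clos P.D (r + 1)) := Or.inl ⟨v, hv, i, rfl⟩
      have hμv : P.μ ≤ |v i| := P.hμ v (clos_mono _ (by omega) hv) i hvi
      have hfac : u ⬝ᵥ v + b * v i = v i * (b - u ⬝ᵥ ((-(v i)⁻¹) • v)) := by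
        rw [dotProduct_smul, smul_eq_mul]
        field_simp
        ring
      rw [hfac]
      rcases hal.2 with ⟨⟨w, hw', hb⟩, h⟩ | ⟨hb, h⟩
      · have hb' : b - u ⬝ᵥ ((-(v i)⁻¹) • v) = u ⬝ᵥ (w - (-(v i)⁻¹) • v) := by
          rw [dotProduct_sub, ← hb]
        rw [hb']
        rcases ih _ (sub_mem_clos hw' hw) with h' | h'
        · left; rw [h', mul_zero]
        · right
          rw [abs_mul]
          exact hsc.trans (mul_le_mul hμv h' hpos (abs_nonneg _))
      · right
        have h5 := hb _ ⟨_, hw, rfl⟩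
        rw [abs_mul, h]
        have h6 : P.Λ r * e = P.μ * P.Γ r e := by unfold Γ; field_simp
        rw [h6]
        exact mul_le_mul hμv h5 (he.trans (P.le_Γ r he)) (abs_nonneg _)

lemma Node.spec_gap {r : ℕ} {A : Finset (Fin d)} {u : Fin d → ℝ} {e c : ℝ}
    (h : P.Node (r + 1) A u e c) :
    ∀ s ∈ P.spec r u, ∀ s' ∈ P.spec r u, s ≠ s' → 2 * P.Γ r e ≤ |s - s'| := by
  rintro _ ⟨w, hw, rfl⟩ _ ⟨w', hw', rfl⟩ hne
  obtain ⟨h1, h2, h3, h4, -⟩ := h.basic
  have hT := P.T_ge
  have he : 0 ≤ e := by linarith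
  have hμ := P.μ_pos
  have hμ1 := P.μ_le
  have hΛ := P.four_le_Λ r
  rcases h.gap _ (sub_mem_clos hw hw') with h' | h'
  · rw [dotProduct_sub] at h'
    exact absurd (sub_eq_zero.1 h') hne
  · rw [dotProduct_sub] at h'
    refine le_trans ?_ h'
    rw [P.Λ_succ]
    unfold Γ
    have : 3 * P.Λ r ^ 2 / P.μ ^ 2 * e = (3 * P.Λ r / P.μ) * (P.Λ r * e / P.μ) := by
      field_simp
    rw [this]
    have h5 : 2 ≤ 3 * P.Λ r / P.μ := by rw [le_div_iff₀ hμ]; nlinarith
    have h6 : 0 ≤ P.Λ r * e / P.μ := by positivity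
    nlinarith

/-- a tie with a minimal coordinate is allowed -/
lemma allowed_tie (r : ℕ) {A : Finset (Fin d)} {u : Fin d → ℝ} (e : ℝ) {i : Fin d}
    (hmin : ∀ j ∈ A, u i ≤ u j) : P.Allowed r A u e (u i) (3 * P.Γ r e) := by
  refine ⟨?_, Or.inl ⟨P.coord_mem_spec r u i, rfl⟩⟩
  rintro _ ⟨j, hj, rfl⟩
  exact hmin j hj

/-- any minimal coordinate may be taken as the last one -/
lemma Node.reorder {r : ℕ} {A : Finset (Fin d)} {u : Fin d → ℝ} {e c : ℝ} (h : P.Node r A u e c) :
    ∀ i ∈ A, (∀ j ∈ A, u i ≤ u j) → ∃ e₀ c₀, P.Node (r + 1) (A.erase i) (Function.update u i 0) e₀ c₀ ∧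
      P.Allowed r (A.erase i) (Function.update u i 0) e₀ (u i) e ∧ c = c₀ + exp (u i - e) := by
  induction h with
  | root => intro i hi; simp at hi
  | @step r A u e c j b e' hn hj hjA hal ih =>
    obtain ⟨h1, h2, h3, h4, -⟩ := hn.basic
    have hT := P.T_ge
    have he : 0 < e := by linarith
    intro i hi hmin
    by_cases hij : i = j
    · subst hij
      have e1 : Function.update (Function.update u i b) i 0 = u := by
        rw [Function.update_idem, ← h3 i hjA, Function.update_eq_self]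
      rw [erase_insert hjA, e1, Function.update_self]
      exact ⟨e, c, hn, hal, rfl⟩
    · have hiA : i ∈ A := (mem_insert.1 hi).resolve_left hij
      have hui : Function.update u j b i = u i := Function.update_of_ne hij _ _
      have hb : u i = b := by
        have a1 := hmin j (mem_insert_self _ _)
        rw [hui, Function.update_self] at a1
        have a2 := hal.1 (u i) ⟨i, hiA, rfl⟩
        linarith
      have hmin' : ∀ k ∈ A, u i ≤ u k := by
        intro k hk
        rw [hb]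
        exact hal.1 (u k) ⟨k, hk, rfl⟩
      obtain ⟨e₀, c₀, hn₀, hal₀, hc⟩ := ih i hiA hmin'
      have he' : e' = 3 * P.Γ r e := by
        rcases hal.2 with ⟨_, h⟩ | ⟨h, _⟩
        · exact h
        · have := h (u i) (P.coord_mem_spec r u i)
          rw [hb, sub_self, abs_zero] at this
          linarith [P.le_Γ r he.le]
      have hn₁ := Node.step hn₀ hj (fun h => hjA (mem_of_mem_erase h)) hal₀
      have eA : (insert j A).erase i = insert j (A.erase i) := by
        rw [erase_insert_of_ne (Ne.symm hij)]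
      have eu : Function.update (Function.update u j b) i 0 =
          Function.update (Function.update u i 0) j (u i) := by
        rw [Function.update_comm (Ne.symm hij), hb]
      rw [eA, eu, hui]
      refine ⟨e, c₀ + exp (u i - e), hn₁, ?_, by rw [hc, hb]⟩
      have := P.allowed_tie r (A := insert j (A.erase i))
        (u := Function.update (Function.update u i 0) j (u i)) e (i := j) ?_
      · rw [Function.update_self] at this
        rw [he']
        exact this
      · intro k hk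
        rw [Function.update_self]
        rcases mem_insert.1 hk with rfl | hk
        · rw [Function.update_self]
        · have hki : k ≠ i := ne_of_mem_erase hk
          have hkA : k ∈ A := mem_of_mem_erase hk
          rw [Function.update_of_ne (by rintro rfl; exact hjA hkA), Function.update_of_ne hki]
          exact hmin' k hkA

/-- completing a node by ties -/
lemma Node.complete (x : Fin d → ℝ) : ∀ (r : ℕ) {A : Finset (Fin d)} {u : Fin d → ℝ} {e c : ℝ},
    P.Node r A u e c → ∀ i ∈ A, (∀ j ∈ A, u i ≤ u j) → ∃ u' e' c', P.Node 0 P.I u' e' c' ∧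
      u ⬝ᵥ x - c + u i * ∑ j ∈ P.I \ A, x j - r * exp (u i - e) ≤ u' ⬝ᵥ x - c' := by
  intro r
  induction r with
  | zero =>
    intro A u e c h i _ _
    obtain ⟨h1, h2, -⟩ := h.basic
    have : A = P.I := eq_of_subset_of_card_le h1 (by omega)
    subst this
    exact ⟨u, e, c, h, by simp⟩
  | succ r ih =>
    intro A u e c h i hi hmin
    obtain ⟨h1, h2, h3, h4, -⟩ := h.basic
    have hT := P.T_ge
    have he : 0 ≤ e := by linarith
    obtain ⟨j, hj, hjA⟩ : ∃ j ∈ P.I, j ∉ A := by
      by_contra hcon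
      push Not at hcon
      have := card_le_card (show P.I ⊆ A from hcon)
      omega
    have hal := P.allowed_tie r e hmin
    have hn := Node.step h hj hjA hal
    have hij : i ≠ j := by rintro rfl; exact hjA hi
    obtain ⟨u', e', c', hn', hle⟩ := ih hn j (mem_insert_self _ _) (by
      intro k hk
      rw [Function.update_self]
      rcases mem_insert.1 hk with rfl | hk'
      · rw [Function.update_self]
      · rw [Function.update_of_ne (by rintro rfl; exact hjA hk')]
        exact hmin k hk')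
    refine ⟨u', e', c', hn', le_trans ?_ hle⟩
    rw [update_dot (h3 j hjA), Function.update_self]
    have hs : ∑ k ∈ P.I \ A, x k = x j + ∑ k ∈ P.I \ insert j A, x k := by
      rw [sdiff_insert, add_sum_erase _ _ (mem_sdiff.2 ⟨hj, hjA⟩)]
    have hexp : exp (u i - 3 * P.Γ r e) ≤ exp (u i - e) :=
      exp_le_exp.2 (by linarith [P.le_Γ r he])
    rw [hs]
    push_cast
    have hr : (0 : ℝ) ≤ r := Nat.cast_nonneg r
    nlinarith

end Par

end Crest.Agent.R92
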