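import Mathlib
import Crest.Agent.R92.Tree

/-! Near-maximisers of the snapping family are close to `log x` and sign-compatible with it. -/

set_option autoImplicit false

namespace Crest.Agent.R92

open Real Finset

variable {d : ℕ}

namespace Par

variable {P : Par d} {z : Fin d → ℝ} {S η : ℝ}

/-- the node can still be completed to a near-optimal leaf, as far as the crude bound tells -/
def Good (P : Par d) (z : Fin d → ℝ) (S η : ℝ) (A : Finset (Fin d)) (u : Fin d → ℝ) (c : ℝ) : Prop :=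
  ∀ i ∈ A, S - η ≤ u ⬝ᵥ (fun j => exp (z j)) - c + u i * ∑ j ∈ P.I \ A, exp (z j)

lemma sum_sdiff_insert {A : Finset (Fin d)} {j : Fin d} (hj : j ∈ P.I) (hjA : j ∉ A)
    (x : Fin d → ℝ) : ∑ k ∈ P.I \ A, x k = x j + ∑ k ∈ P.I \ insert j A, x k := by
  rw [sdiff_insert, add_sum_erase _ _ (mem_sdiff.2 ⟨hj, hjA⟩)]

lemma good_child {r : ℕ} {A : Finset (Fin d)} {u : Fin d → ℝ} {e c b c' : ℝ} {j : Fin d}
    (h : P.Node (r + 1) A u e c) (hj : j ∈ P.I) (hjA : j ∉ A)
    (hg : P.Good z S η (insert j A) (Function.update u j b) (c + c')) :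
    S - η ≤ u ⬝ᵥ (fun j => exp (z j)) - c - c' + b * ∑ k ∈ P.I \ A, exp (z k) := by
  have h1 := hg j (mem_insert_self _ _)
  rw [update_dot (h.basic.2.2.1 j hjA), Function.update_self] at h1
  rw [sum_sdiff_insert hj hjA]
  linarith

lemma good_parent {r : ℕ} {A : Finset (Fin d)} {u : Fin d → ℝ} {e c b e' : ℝ} {j : Fin d}
    (h : P.Node (r + 1) A u e c) (hj : j ∈ P.I) (hjA : j ∉ A) (hal : P.Allowed r A u e b e')
    (hg : P.Good z S η (insert j A) (Function.update u j b) (c + exp (b - e'))) :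
    P.Good z S η A u c := by
  intro i hi
  have h1 := good_child h hj hjA hg
  have h2 := hal.1 (u i) ⟨i, hi, rfl⟩
  have h3 : 0 ≤ ∑ k ∈ P.I \ A, exp (z k) := sum_nonneg fun k _ => (exp_pos _).le
  have h4 := mul_le_mul_of_nonneg_right h2 h3
  linarith [exp_pos (b - e')]

lemma star (hS : ∀ u e c, P.Node 0 P.I u e c → u ⬝ᵥ (fun j => exp (z j)) - c ≤ S)
    {r : ℕ} {A : Finset (Fin d)} {u : Fin d → ℝ} {e c b e' : ℝ} {j : Fin d}
    (h : P.Node (r + 1) A u e c) (hj : j ∈ P.I) (hjA : j ∉ A)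
    (hg : P.Good z S η (insert j A) (Function.update u j b) (c + exp (b - e'))) :
    ∀ b' e'', P.Allowed r A u e b' e'' →
      (b' - b) * (∑ k ∈ P.I \ A, exp (z k)) + exp (b - e') ≤
        ((r : ℝ) + 1) * exp (b' - e'') + η := by
  intro b' e'' hal
  have h1 := good_child h hj hjA hg
  have hn := Node.step h hj hjA hal
  obtain ⟨u', e₁, c', hn', hle⟩ := Node.complete (fun j => exp (z j)) r hn j (mem_insert_self _ _) (by
    intro k hk
    rw [Function.update_self]
    rcases mem_insert.1 hk with rfl | hk'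
    · rw [Function.update_self]
    · rw [Function.update_of_ne (by rintro rfl; exact hjA hk')]
      exact hal.1 _ ⟨k, hk', rfl⟩)
  have h2 := hS _ _ _ hn'
  rw [update_dot (h.basic.2.2.1 j hjA), Function.update_self] at hle
  rw [sum_sdiff_insert hj hjA] at h1 ⊢
  nlinarith

lemma exists_max {r : ℕ} {A : Finset (Fin d)} {u : Fin d → ℝ} {e c : ℝ} {j : Fin d}
    (h : P.Node (r + 1) A u e c) (hj : j ∈ P.I) (hjA : j ∉ A) (z : Fin d → ℝ) :
    ∃ k ∈ P.I, k ∉ A ∧ (∀ l ∈ P.I, l ∉ A → z l ≤ z k) ∧ exp (z k) ≤ ∑ l ∈ P.I \ A, exp (z l) ∧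
      ∑ l ∈ P.I \ A, exp (z l) ≤ ((r : ℝ) + 1) * exp (z k) := by
  obtain ⟨k, hk, hmax⟩ := exists_max_image (P.I \ A) z ⟨j, mem_sdiff.2 ⟨hj, hjA⟩⟩
  obtain ⟨h1, h2, -⟩ := h.basic
  refine ⟨k, (mem_sdiff.1 hk).1, (mem_sdiff.1 hk).2, fun l hl hlA => hmax l (mem_sdiff.2 ⟨hl, hlA⟩),
    single_le_sum (f := fun l => exp (z l)) (fun l _ => (exp_pos _).le) hk, ?_⟩
  have h3 : (P.I \ A).card = r + 1 := by rw [card_sdiff_of_subset h1]; omega
  calc ∑ l ∈ P.I \ A, exp (z l) ≤ (P.I \ A).card • exp (z k) :=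
        sum_le_card_nsmul _ _ _ fun l hl => exp_le_exp.2 (hmax l hl)
    _ = _ := by rw [h3, nsmul_eq_mul]; push_cast; ring

lemma scale_bounds {r : ℕ} {A : Finset (Fin d)} {u : Fin d → ℝ} {e c : ℝ}
    (h : P.Node (r + 1) A u e c) :
    3 ≤ e ∧ (r : ℝ) + 1 ≤ e ∧ P.Γ r e ≤ (P.Λ P.I.card / P.μ) * e ∧
      2 * ((r : ℝ) + 1) * (P.Λ P.I.card / P.μ + 4) < e := by
  obtain ⟨h1, h2, h3, h4, -⟩ := h.basic
  have hT := P.T_ge
  have hT' := P.hT
  have hμ := P.μ_pos
  have hΛ := P.four_le_Λ P.I.card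
  have hr : (r : ℝ) + 1 ≤ P.I.card := by exact_mod_cast (by omega : r + 1 ≤ P.I.card)
  have hq : 0 ≤ P.Λ P.I.card / P.μ := by positivity
  have hr0 : (0 : ℝ) ≤ r := Nat.cast_nonneg r
  change 2 * (P.I.card : ℝ) * (P.Λ P.I.card / P.μ + 4) < P.T at hT'
  have h5 : 2 * ((r : ℝ) + 1) * (P.Λ P.I.card / P.μ + 4) ≤
      2 * (P.I.card : ℝ) * (P.Λ P.I.card / P.μ + 4) := by gcongr
  refine ⟨by linarith, by nlinarith, ?_, by linarith⟩
  unfold Γ
  have : P.Λ r ≤ P.Λ P.I.card := P.Λ_mono (by omega)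
  rw [div_mul_eq_mul_div]
  apply div_le_div_of_nonneg_right _ hμ.le
  apply mul_le_mul_of_nonneg_right this (by linarith)

lemma lower (hS : ∀ u e c, P.Node 0 P.I u e c → u ⬝ᵥ (fun j => exp (z j)) - c ≤ S)
    (hη : ∀ j ∈ P.I, η ≤ exp (z j))
    {r : ℕ} {A : Finset (Fin d)} {u : Fin d → ℝ} {e c : ℝ} (h : P.Node r A u e c) :
    P.Good z S η A u c → (∀ i ∈ A, z i - e ≤ u i) ∧ ∀ i ∈ A, ∀ j ∈ P.I, j ∉ A → z j - e ≤ u i := by
  induction h with
  | root => intro _; simp
  | @step r A u e c j b e' hn hj hjA hal ih =>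
    intro hg
    obtain ⟨ih1, ih2⟩ := ih (good_parent hn hj hjA hal hg)
    obtain ⟨k, hk, hkA, hmax, hX1, hX2⟩ := exists_max hn hj hjA z
    obtain ⟨s1, s2, s3, s4⟩ := scale_bounds hn
    have hΓ := P.le_Γ r (by linarith : 0 ≤ e)
    have hee' : e ≤ e' := hal.le (by linarith) hΓ
    have hb : z k - e' ≤ b := by
      refine step_lower (P.spec_finite r u) (P.image_subset_spec r u A) hn.spec_gap s1 hΓ s2 hal
        (star hS hn hj hjA hg) hX1 (hη k hk) ?_
      rintro _ ⟨i, hi, rfl⟩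
      exact ih2 i hi k hk hkA
    constructor
    · intro i hi
      rcases mem_insert.1 hi with rfl | hi'
      · rw [Function.update_self]; linarith [hmax i hj hjA]
      · rw [Function.update_of_ne (by rintro rfl; exact hjA hi')]
        linarith [ih1 i hi']
    · intro i hi l hl hlA
      have hlA' : l ∉ A := fun h => hlA (mem_insert_of_mem h)
      rcases mem_insert.1 hi with rfl | hi'
      · rw [Function.update_self]; linarith [hmax l hl hlA']
      · rw [Function.update_of_ne (by rintro rfl; exact hjA hi')]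
        linarith [ih2 i hi' l hl hlA']

lemma upper_step (hS : ∀ u e c, P.Node 0 P.I u e c → u ⬝ᵥ (fun j => exp (z j)) - c ≤ S)
    (hη : ∀ j ∈ P.I, η ≤ exp (z j))
    {r : ℕ} {A : Finset (Fin d)} {u : Fin d → ℝ} {e c b e' : ℝ} {j : Fin d}
    (hn : P.Node (r + 1) A u e c) (hj : j ∈ P.I) (hjA : j ∉ A) (hal : P.Allowed r A u e b e')
    (hg : P.Good z S η (insert j A) (Function.update u j b) (c + exp (b - e'))) :
    ∃ k ∈ P.I, k ∉ A ∧ b ≤ z k + 2 * e' := by
  obtain ⟨k, hk, hkA, hmax, hX1, hX2⟩ := exists_max hn hj hjA z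
  obtain ⟨s1, s2, s3, s4⟩ := scale_bounds hn
  have hΓ := P.le_Γ r (by linarith : 0 ≤ e)
  have hr0 : (0 : ℝ) ≤ r := Nat.cast_nonneg r
  exact ⟨k, hk, hkA, step_upper (P.spec_finite r u) (P.image_subset_spec r u A) s1 hΓ
    (by linarith) s3 s4 hal (star hS hn hj hjA hg)
    (sum_nonneg fun k _ => (exp_pos _).le) hX2 (hη k hk)⟩

lemma upper (hS : ∀ u e c, P.Node 0 P.I u e c → u ⬝ᵥ (fun j => exp (z j)) - c ≤ S)
    (hη : ∀ j ∈ P.I, η ≤ exp (z j))
    {r : ℕ} {A : Finset (Fin d)} {u : Fin d → ℝ} {e c : ℝ} (h : P.Node r A u e c) :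
    P.Good z S η A u c →
      ∀ i ∈ A, u i ≤ z i + 2 * e ∨ ∃ k ∈ P.I, k ∉ A ∧ u i ≤ z k + 2 * e := by
  induction h with
  | root => intro _; simp
  | @step r A u e c j b e' hn hj hjA hal ih =>
    intro hg i hi
    have hn' := Node.step hn hj hjA hal
    have hmin : ∀ k ∈ insert j A, b ≤ Function.update u j b k := by
      intro k hk
      rcases mem_insert.1 hk with rfl | hk'
      · rw [Function.update_self]
      · rw [Function.update_of_ne (by rintro rfl; exact hjA hk')]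
        exact hal.1 _ ⟨k, hk', rfl⟩
    by_cases hib : Function.update u j b i = b
    · obtain ⟨e₀, c₀, hn₀, hal₀, hc⟩ := hn'.reorder i hi (by rw [hib]; exact hmin)
      have hiI : i ∈ P.I := hn'.basic.1 hi
      have hg' : P.Good z S η (insert i ((insert j A).erase i))
          (Function.update (Function.update (Function.update u j b) i 0) i (Function.update u j b i))
          (c₀ + exp (Function.update u j b i - e')) := by
        rw [insert_erase hi, Function.update_idem, Function.update_eq_self, ← hc]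
        exact hg
      obtain ⟨k, hk, hkA, hle⟩ := upper_step hS hη hn₀ hiI (notMem_erase _ _) hal₀ hg'
      by_cases hki : k = i
      · left; rw [← hki]; rw [← hki] at hle; exact hle
      · right
        exact ⟨k, hk, fun h => hkA (mem_erase.2 ⟨hki, h⟩), hle⟩
    · have hij : i ≠ j := by rintro rfl; exact hib (Function.update_self _ _ _)
      have hiA : i ∈ A := (mem_insert.1 hi).resolve_left hij
      have hui : Function.update u j b i = u i := Function.update_of_ne hij _ _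
      obtain ⟨s1, -⟩ := scale_bounds hn
      have hΓ := P.le_Γ r (by linarith : 0 ≤ e)
      have hee' : e ≤ e' := hal.le (by linarith) hΓ
      rw [hui] at hib ⊢
      rcases ih (good_parent hn hj hjA hal hg) i hiA with h | ⟨k, hk, hkA, h⟩
      · left; linarith
      · exfalso
        obtain ⟨l1, l2⟩ := lower hS hη hn' hg
        have hbk : z k - e' ≤ b := by
          by_cases hkj : k = j
          · have := l1 j (mem_insert_self _ _)
            rw [Function.update_self] at this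
            rw [hkj]; exact this
          · have := l2 j (mem_insert_self _ _) k hk (by
              rw [mem_insert, not_or]; exact ⟨hkj, hkA⟩)
            rwa [Function.update_self] at this
        have hle : b ≤ u i := hal.1 _ ⟨i, hiA, rfl⟩
        have hgap := hn'.gap _ (sub_mem_clos (single_mem_specVecs _ i) (single_mem_specVecs _ j))
        rw [dotProduct_sub, dotProduct_single, dotProduct_single, mul_one, mul_one, hui,
          Function.update_self] at hgap
        rcases hgap with h' | h'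
        · exact hib (by linarith)
        · rw [abs_of_nonneg (by linarith)] at h'
          have := P.four_le_Λ r
          nlinarith

end Par

/-- The key lemma. -/
theorem key (I : Finset (Fin d)) (D : Set (Fin d → ℝ)) (hD : D.Finite) (δ : ℝ) :
    ∃ (E : ℝ) (U : Set ((Fin d → ℝ) × ℝ)), 0 ≤ E ∧ U.Nonempty ∧
      (∀ w ∈ U, ∀ i ∉ I, w.1 i = 0) ∧
      (∀ w ∈ U, 0 ≤ w.2 ∧ w.2 ≤ ∑ i ∈ I, exp (w.1 i)) ∧
      (∀ w ∈ U, ∀ i ∈ I, exp (w.1 i - E) ≤ w.2) ∧
      (∀ w ∈ U, ∀ v ∈ D, w.1 ⬝ᵥ v = 0 ∨ 1 ≤ |w.1 ⬝ᵥ v|) ∧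
      (∀ (z : Fin d → ℝ) (η : ℝ), (∀ j ∈ I, η ≤ exp (z j)) → ∀ w ∈ U,
        (∀ w' ∈ U, w'.1 ⬝ᵥ (fun j => exp (z j)) - w'.2 ≤ w.1 ⬝ᵥ (fun j => exp (z j)) - w.2 + η) →
        (∀ i ∈ I, |w.1 i - z i| ≤ E) ∧ ∀ v ∈ D, 0 < w.1 ⬝ᵥ v → δ ≤ ∑ i ∈ I, z i * v i) := by
  -- the constant `μ`
  obtain ⟨μ, hμ0, hμ1, hμ⟩ : ∃ μ : ℝ, 0 < μ ∧ μ ≤ 1 ∧
      ∀ v ∈ clos D (I.card + 1), ∀ i, v i ≠ 0 → μ ≤ |v i| := by
    have hfin : ((fun p : (Fin d → ℝ) × Fin d => |p.1 p.2|) ''
        ((clos D (I.card + 1) ×ˢ Set.univ) ∩ {p | p.1 p.2 ≠ 0}) ∪ {1}).Finite :=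
      ((((clos_finite hD _).prod Set.finite_univ).subset Set.inter_subset_left).image _).union
        (Set.finite_singleton _)
    obtain ⟨μ, hμ, hmin⟩ := Set.exists_min_image _ id hfin ⟨1, Or.inr rfl⟩
    refine ⟨μ, ?_, hmin 1 (Or.inr rfl), fun v hv i hi =>
      hmin _ (Or.inl ⟨(v, i), ⟨⟨hv, trivial⟩, hi⟩, rfl⟩)⟩
    rcases hμ with ⟨p, hp, rfl⟩ | h
    · exact abs_pos.2 hp.2
    · rw [h]; exact one_pos
  -- the constant `L`
  obtain ⟨B, hB⟩ : ∃ B : ℝ, ∀ v ∈ D, ∑ i, |v i| ≤ B := by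
    obtain ⟨B, hB⟩ := (hD.image fun v => ∑ i, |v i|).bddAbove
    exact ⟨B, fun v hv => hB ⟨v, hv, rfl⟩⟩
  set L : ℝ := max 4 (2 * B + 1) with hL
  set T : ℝ := max (max 3 δ) (2 * (I.card : ℝ) * (lam μ L I.card / μ + 4) + 1) with hT
  let P : Par d := ⟨I, D, μ, L, T, hD, hμ0, hμ1, le_max_left _ _,
    (le_max_left _ _).trans (le_max_left _ _), hμ,
    lt_of_lt_of_le (lt_add_one _) (le_max_right _ _)⟩
  have hT3 : 3 ≤ P.T := P.T_ge
  have hTδ : δ ≤ P.T := (le_max_right _ _).trans (le_max_left _ _)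
  have hM := P.one_le_M
  have hE : ∀ {u e c}, P.Node 0 P.I u e c → 2 * e ≤ 2 * (P.T * P.M ^ P.I.card) := by
    intro u e c h
    have := h.basic.2.2.2.2.1
    rw [pow_zero, mul_one] at this
    linarith
  refine ⟨2 * (P.T * P.M ^ P.I.card), {w | ∃ e, P.Node 0 P.I w.1 e w.2}, by positivity,
    ?_, ?_, ?_, ?_, ?_, ?_⟩
  · -- nonempty
    rcases I.eq_empty_or_nonempty with hI | ⟨j, hj⟩
    · have h := Par.Node.root (P := P)
      have h1 : P.I = ∅ := hI
      have h2 : P.I.card = 0 := by rw [h1]; rfl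
      rw [h2] at h
      exact ⟨(0, 0), P.T, by rw [h1]; exact h⟩
    · have h := Par.Node.root (P := P)
      obtain ⟨r, hr⟩ : ∃ r, P.I.card = r + 1 :=
        Nat.exists_eq_succ_of_ne_zero (card_pos.2 ⟨j, hj⟩).ne'
      rw [hr] at h
      have hal := P.allowed_tie r (A := ∅) (u := 0) P.T (i := j) (by simp)
      have hn := Par.Node.step h hj (notMem_empty j) hal
      obtain ⟨u', e', c', hn', -⟩ := Par.Node.complete 0 r hn j (mem_insert_self _ _) (by simp)
      exact ⟨(u', c'), e', hn'⟩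
  · rintro w ⟨e, h⟩
    exact h.basic.2.2.1
  · rintro w ⟨e, h⟩
    exact ⟨h.basic.2.2.2.2.2.1, h.basic.2.2.2.2.2.2.1⟩
  · rintro w ⟨e, h⟩ i hi
    refine le_trans (exp_le_exp.2 ?_) (h.basic.2.2.2.2.2.2.2 i hi)
    have := hE h
    have := h.basic.2.2.2.1
    linarith
  · rintro w ⟨e, h⟩ v hv
    rcases h.gap v (clos_mono _ (Nat.zero_le _) hv) with h' | h'
    · exact Or.inl h'
    · right
      have := h.basic.2.2.2.1
      have := P.four_le_Λ 0
      nlinarith
  · rintro z η hη w ⟨e, h⟩ hmax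
    have hS : ∀ u e c, P.Node 0 P.I u e c →
        u ⬝ᵥ (fun j => exp (z j)) - c ≤ w.1 ⬝ᵥ (fun j => exp (z j)) - w.2 + η :=
      fun u e c hn => hmax (u, c) ⟨e, hn⟩
    have hg : P.Good z (w.1 ⬝ᵥ (fun j => exp (z j)) - w.2 + η) η P.I w.1 w.2 := by
      intro i _
      simp
    have hlo := (Par.lower hS hη h hg).1
    have hup := Par.upper hS hη h hg
    have he := h.basic.2.2.2.1
    have habs : ∀ i ∈ I, |w.1 i - z i| ≤ 2 * e := by
      intro i hi
      have a1 := hlo i hi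
      rcases hup i hi with a2 | ⟨k, hk, hk', -⟩
      · rw [abs_le]; constructor <;> linarith
      · exact absurd hk hk'
    refine ⟨fun i hi => (habs i hi).trans (hE h), fun v hv hpos => ?_⟩
    rcases h.gap v (clos_mono _ (Nat.zero_le _) hv) with h' | h'
    · exact absurd h' hpos.ne'
    · rw [abs_of_pos hpos] at h'
      have e1 : w.1 ⬝ᵥ v = ∑ i ∈ I, w.1 i * v i := by
        unfold dotProduct
        symm
        apply sum_subset (subset_univ _)
        intro i _ hi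
        rw [h.basic.2.2.1 i hi, zero_mul]
      have e2 : ∑ i ∈ I, w.1 i * v i - ∑ i ∈ I, z i * v i ≤ 2 * e * B := by
        rw [← sum_sub_distrib]
        calc ∑ i ∈ I, (w.1 i * v i - z i * v i) ≤ ∑ i ∈ I, 2 * e * |v i| := by
              apply sum_le_sum
              intro i hi
              calc w.1 i * v i - z i * v i = (w.1 i - z i) * v i := by ring
                _ ≤ |(w.1 i - z i) * v i| := le_abs_self _
                _ = |w.1 i - z i| * |v i| := abs_mul _ _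
                _ ≤ 2 * e * |v i| := by gcongr; exact habs i hi
          _ = 2 * e * ∑ i ∈ I, |v i| := by rw [mul_sum]
          _ ≤ 2 * e * B := by
              apply mul_le_mul_of_nonneg_left _ (by linarith)
              exact (sum_le_sum_of_subset_of_nonneg (subset_univ _)
                fun i _ _ => abs_nonneg _).trans (hB v hv)
      have e3 : 2 * B + 1 ≤ P.Λ 0 := le_max_right _ _
      nlinarith

end Crest.Agent.R92
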