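import Mathlib
import Crest.Agent.R92.Key

/-! The hierarchical barrier family. -/

set_option autoImplicit false

namespace Crest.Agent.R92

open Real Finset

variable {d : ℕ}

/-- value of an affine function at `exp z` -/
noncomputable def val (w : (Fin d → ℝ) × ℝ) (z : Fin d → ℝ) : ℝ :=
  w.1 ⬝ᵥ (fun j => exp (z j)) - w.2

/-- The conclusion of the key lemma, bundled. -/
structure KeyData (I : Finset (Fin d)) (D : Set (Fin d → ℝ)) (δ E : ℝ)
    (U : Set ((Fin d → ℝ) × ℝ)) : Prop where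
  E_nonneg : 0 ≤ E
  nonempty : U.Nonempty
  supp : ∀ w ∈ U, ∀ i ∉ I, w.1 i = 0
  cost : ∀ w ∈ U, 0 ≤ w.2 ∧ w.2 ≤ ∑ i ∈ I, exp (w.1 i)
  cost' : ∀ w ∈ U, ∀ i ∈ I, exp (w.1 i - E) ≤ w.2
  gap : ∀ w ∈ U, ∀ v ∈ D, w.1 ⬝ᵥ v = 0 ∨ 1 ≤ |w.1 ⬝ᵥ v|
  near : ∀ (z : Fin d → ℝ) (η : ℝ), (∀ j ∈ I, η ≤ exp (z j)) → ∀ w ∈ U,
    (∀ w' ∈ U, val w' z ≤ val w z + η) →
    (∀ i ∈ I, |w.1 i - z i| ≤ E) ∧ ∀ v ∈ D, 0 < w.1 ⬝ᵥ v → δ ≤ ∑ i ∈ I, z i * v i

theorem key' (I : Finset (Fin d)) (D : Set (Fin d → ℝ)) (hD : D.Finite) (δ : ℝ) :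
    ∃ E U, KeyData I D δ E U := by
  obtain ⟨E, U, h1, h2, h3, h4, h5, h6, h7⟩ := key I D hD δ
  exact ⟨E, U, h1, h2, h3, h4, h5, h6, h7⟩

lemma exists_eta (z : Fin d → ℝ) {ε : ℝ} (hε : 0 < ε) :
    ∃ η, 0 < η ∧ η ≤ ε ∧ ∀ j, η ≤ exp (z j) := by
  refine ⟨min ε (exp (-‖z‖)), by positivity, min_le_left _ _, fun j => ?_⟩
  refine (min_le_right _ _).trans (exp_le_exp.2 ?_)
  have := norm_le_pi_norm z j
  rw [Real.norm_eq_abs] at this
  linarith [neg_abs_le (z j)]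

namespace KeyData

variable {I : Finset (Fin d)} {D : Set (Fin d → ℝ)} {δ E : ℝ} {U : Set ((Fin d → ℝ) × ℝ)}

lemma val_le (h : KeyData I D δ E U) {w : (Fin d → ℝ) × ℝ} (hw : w ∈ U) {z : Fin d → ℝ} {X : ℝ}
    (hX : 0 < X) (hz : ∑ i, exp (z i) ≤ X) : val w z ≤ (E + X) * X := by
  have hc := (h.cost w hw).1
  have hE := h.E_nonneg
  have ht : 0 ≤ E + X + w.2 / X := by positivity
  have h1 : ∀ i, w.1 i ≤ E + X + w.2 / X := by
    intro i
    by_cases hi : i ∈ I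
    · have a1 := h.cost' w hw i hi
      have a2 := add_one_le_exp (w.1 i - E - log X)
      have a3 : exp (w.1 i - E - log X) = exp (w.1 i - E) / X := by rw [exp_sub, exp_log hX]
      have a4 : exp (w.1 i - E) / X ≤ w.2 / X := by gcongr
      have a5 := log_le_sub_one_of_pos hX
      linarith
    · rw [h.supp w hw i hi]; exact ht
  have h2 : w.1 ⬝ᵥ (fun j => exp (z j)) ≤ (E + X + w.2 / X) * X := by
    calc w.1 ⬝ᵥ (fun j => exp (z j)) ≤ ∑ i, (E + X + w.2 / X) * exp (z i) :=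
          sum_le_sum fun i _ => mul_le_mul_of_nonneg_right (h1 i) (exp_pos _).le
      _ = (E + X + w.2 / X) * ∑ i, exp (z i) := by rw [mul_sum]
      _ ≤ _ := mul_le_mul_of_nonneg_left hz ht
  have h3 : (E + X + w.2 / X) * X = (E + X) * X + w.2 := by field_simp
  unfold val
  linarith

lemma exists_near (h : KeyData I D δ E U) (z : Fin d → ℝ) {η : ℝ} (hη : 0 < η) :
    ∃ w ∈ U, ∀ w' ∈ U, val w' z ≤ val w z + η := by
  have hb : BddAbove ((fun w => val w z) '' U) := by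
    refine ⟨(E + (∑ i, exp (z i) + 1)) * (∑ i, exp (z i) + 1), ?_⟩
    rintro _ ⟨w, hw, rfl⟩
    exact h.val_le hw (by positivity) (by linarith)
  obtain ⟨_, ⟨w, hw, rfl⟩, hlt⟩ := exists_lt_of_lt_csSup (h.nonempty.image fun w => val w z)
    (sub_lt_self (sSup ((fun w => val w z) '' U)) hη)
  exact ⟨w, hw, fun w' hw' => by linarith [le_csSup hb ⟨w', hw', rfl⟩]⟩

lemma exists_close (h : KeyData I D δ E U) (z : Fin d → ℝ) :
    ∃ w ∈ U, ∀ i ∈ I, |w.1 i - z i| ≤ E := by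
  obtain ⟨η, h1, -, h3⟩ := exists_eta z one_pos
  obtain ⟨w, hw, hmax⟩ := h.exists_near z h1
  exact ⟨w, hw, (h.near z η (fun j _ => h3 j) w hw hmax).1⟩

lemma restrict (h : KeyData I D δ E U) (z : Fin d → ℝ) {s : ℝ} (A : (Fin d → ℝ) → Prop)
    (hA : ∀ u : Fin d → ℝ, (∀ i ∉ I, u i = 0) → (∀ i ∈ I, |u i - z i| ≤ E) → A u)
    (hs : ∀ w ∈ U, A w.1 → val w z ≤ s) : ∀ w ∈ U, val w z ≤ s := by
  intro w hw
  apply le_of_forall_pos_le_add
  intro ε hε
  obtain ⟨η, h1, h2, h3⟩ := exists_eta z hε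
  obtain ⟨w₀, hw₀, hmax⟩ := h.exists_near z h1
  have := hs w₀ hw₀ (hA _ (h.supp w₀ hw₀) (h.near z η (fun j _ => h3 j) w₀ hw₀ hmax).1)
  linarith [hmax w hw]

end KeyData

/-- sign compatibility with a margin -/
def Compat (D : Set (Fin d → ℝ)) (δ : ℝ) (u z : Fin d → ℝ) : Prop :=
  ∀ v ∈ D, 0 < u ⬝ᵥ v → δ ≤ z ⬝ᵥ v

/-- the state of the construction after treating the subsets in `s` -/
def Stage (D : Set (Fin d → ℝ)) (δ ρ : ℝ) (s : Finset (Finset (Fin d))) : Prop :=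
  ∃ (Θ R₀ ε₁ : ℝ) (W : Set ((Fin d → ℝ) × ℝ)), 0 ≤ Θ ∧ 0 ≤ R₀ ∧ 0 < ε₁ ∧
    (∀ z : Fin d → ℝ, (∀ i, |z i| ≤ ρ) → ∀ w ∈ W, val w z ≤ 0) ∧
    ∀ (z : Fin d → ℝ) (ζ Rb ε : ℝ), 0 ≤ ζ → (∀ i, |z i| ≤ ζ) → R₀ + ζ ≤ Rb → ε ≤ ε₁ →
      (∀ j, ε ≤ exp (z j)) → (∀ w ∈ W, (∀ i, |w.1 i| ≤ Rb) → val w z ≤ ε) →
      (∀ i, z i ≤ Θ) ∧ (∀ J ∈ s, ∃ j ∈ J, -Θ ≤ z j) ∧
        ∀ w ∈ W, 0 ≤ val w z → Compat D δ w.1 z

lemma stage_empty (D : Set (Fin d → ℝ)) (hD : D.Finite) (δ ρ : ℝ) : Stage D δ ρ ∅ := by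
  obtain ⟨E, U, h⟩ := key' univ D hD δ
  have hE := h.E_nonneg
  set X : ℝ := d * exp ρ + 1 with hX
  have hX0 : 0 < X := by positivity
  set L : ℝ := (E + X) * X with hL
  have hL0 : 0 ≤ L := by positivity
  obtain ⟨w₁, hw₁, hc⟩ := h.exists_close (fun _ => E + 1)
  have hc1 := (h.cost w₁ hw₁).1
  have hval : ∀ (w : (Fin d → ℝ) × ℝ) z, val (w.1, w.2 + L) z = val w z - L := by
    intro w z; unfold val; ring
  refine ⟨L + 1 + w₁.2, 2 * E + 1, 1, (fun w => (w.1, w.2 + L)) '' U, by positivity,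
    by positivity, one_pos, ?_, ?_⟩
  · rintro z hz _ ⟨w, hw, rfl⟩
    rw [hval]
    have : ∑ i, exp (z i) ≤ X := by
      calc ∑ i, exp (z i) ≤ ∑ _i : Fin d, exp ρ :=
            sum_le_sum fun i _ => exp_le_exp.2 ((le_abs_self _).trans (hz i))
        _ = d * exp ρ := by simp
        _ ≤ X := by linarith
    linarith [h.val_le hw hX0 this]
  · intro z ζ Rb ε hζ hz hRb hε hε' hW
    have hW' : ∀ w ∈ U, (∀ i, |w.1 i| ≤ Rb) → val w z ≤ L + ε := by
      intro w hw hb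
      have := hW _ ⟨w, hw, rfl⟩ hb
      rw [hval] at this
      linarith
    refine ⟨fun i => ?_, by simp, ?_⟩
    · have h1 : ∀ j, 1 ≤ w₁.1 j ∧ |w₁.1 j| ≤ Rb := by
        intro j
        have := abs_le.1 (hc j (mem_univ _))
        refine ⟨by linarith, abs_le.2 ⟨by linarith, by linarith⟩⟩
      have h2 := hW' w₁ hw₁ fun j => (h1 j).2
      have h3 : exp (z i) ≤ w₁.1 ⬝ᵥ (fun j => exp (z j)) := by
        calc exp (z i) ≤ ∑ j, exp (z j) :=
              single_le_sum (f := fun j => exp (z j)) (fun j _ => (exp_pos _).le) (mem_univ i)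
          _ ≤ _ := sum_le_sum fun j _ => le_mul_of_one_le_left (exp_pos _).le (h1 j).1
      unfold val at h2
      linarith [add_one_le_exp (z i)]
    · rintro _ ⟨w, hw, rfl⟩ hact v hv hpos
      rw [hval] at hact
      have hall := h.restrict z (fun u => ∀ i, |u i| ≤ Rb) (fun u _ hu i => by
        have a1 := abs_le.1 (hu i (mem_univ _))
        have a2 := abs_le.1 (hz i)
        exact abs_le.2 ⟨by linarith, by linarith⟩) hW'
      exact (h.near z ε (fun j _ => hε' j) w hw fun w' hw' => by linarith [hall w' hw']).2 v hv hpos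

lemma stage_insert (D : Set (Fin d → ℝ)) (hD : D.Finite) (δ ρ : ℝ) {s : Finset (Finset (Fin d))}
    (hs : Stage D δ ρ s) {I : Finset (Fin d)} (hI : I.Nonempty)
    (hup : ∀ j ∉ I, insert j I ∈ s) : Stage D δ ρ (insert I s) := by
  obtain ⟨Θ, R₀, ε₁, W, hΘ, hR₀, hε₁, hbox, hmain⟩ := hs
  obtain ⟨B, hB⟩ : ∃ B : ℝ, ∀ v ∈ D, ∑ i, |v i| ≤ B := by
    obtain ⟨B, hB⟩ := (hD.image fun v => ∑ i, |v i|).bddAbove
    exact ⟨B, fun v hv => hB ⟨v, hv, rfl⟩⟩
  obtain ⟨E, U, h⟩ := key' I D hD (δ + Θ * B)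
  have hE := h.E_nonneg
  -- the level
  set a : ℝ := |ρ| + E + Θ + 1 with ha
  have ha0 : 0 ≤ |ρ| := abs_nonneg _
  set l : ℝ := exp (-a) with hl
  have hl0 : 0 < l := exp_pos _
  -- a specific element with small cost
  set n : ℝ := 4 * ((d : ℝ) + 1) with hn
  have hd0 : (0 : ℝ) ≤ d := Nat.cast_nonneg d
  have hn0 : 0 < n := by positivity
  obtain ⟨w₁, hw₁, hc⟩ := h.exists_close (fun _ => -(a + n + E))
  set R₁ : ℝ := a + n + 2 * E with hR₁
  have hR₁0 : 0 < R₁ := by positivity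
  have hw₁b : ∀ i ∈ I, -R₁ ≤ w₁.1 i ∧ w₁.1 i ≤ -(a + n) := by
    intro i hi
    have := abs_le.1 (hc i hi)
    constructor <;> linarith
  have hexp : ∀ y m : ℝ, 0 < m → exp (-(y + m)) ≤ exp (-y) / m := by
    intro y m hm
    rw [neg_add, exp_add, div_eq_mul_inv, exp_neg m]
    gcongr
    linarith [add_one_le_exp m]
  have hcard : (I.card : ℝ) ≤ d := by exact_mod_cast (by simpa using card_le_univ I)
  have hw₁c : w₁.2 ≤ l / 4 := by
    calc w₁.2 ≤ ∑ i ∈ I, exp (w₁.1 i) := (h.cost w₁ hw₁).2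
      _ ≤ I.card • (l / n) := sum_le_card_nsmul _ _ _ fun i hi =>
          (exp_le_exp.2 (hw₁b i hi).2).trans (hexp a n hn0)
      _ = I.card * (l / n) := by rw [nsmul_eq_mul]
      _ ≤ ((d : ℝ) + 1) * (l / n) := by gcongr; linarith
      _ = l / 4 := by rw [hn]; field_simp
  have hval : ∀ (w : (Fin d → ℝ) × ℝ) z, val (w.1, w.2 - l) z = val w z + l := by
    intro w z; unfold val; ring
  have hdot : ∀ w ∈ U, ∀ x : Fin d → ℝ, w.1 ⬝ᵥ x = ∑ i ∈ I, w.1 i * x i := by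
    intro w hw x
    unfold dotProduct
    symm
    apply sum_subset (subset_univ _)
    intro i _ hi
    rw [h.supp w hw i hi, zero_mul]
  have hneg : ∀ w ∈ U, (∀ i ∈ I, w.1 i ≤ -1) → ∀ z, ∀ i ∈ I, val w z ≤ -exp (z i) := by
    intro w hw hle z i hi
    unfold val
    rw [hdot w hw]
    have a1 : ∑ j ∈ I, w.1 j * exp (z j) ≤ ∑ j ∈ I, -exp (z j) :=
      sum_le_sum fun j hj => by nlinarith [hle j hj, exp_pos (z j)]
    rw [sum_neg_distrib] at a1
    have a2 : exp (z i) ≤ ∑ j ∈ I, exp (z j) :=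
      single_le_sum (f := fun j => exp (z j)) (fun j _ => (exp_pos _).le) hi
    linarith [(h.cost w hw).1]
  refine ⟨max Θ (a + n * R₁), max R₀ R₁, min ε₁ (l / 4),
    W ∪ (fun w => (w.1, w.2 - l)) '' {w ∈ U | ∀ i ∈ I, w.1 i ≤ -1},
    hΘ.trans (le_max_left _ _), hR₀.trans (le_max_left _ _), by positivity, ?_, ?_⟩
  · rintro z hz w (hw | ⟨w, ⟨hw, hle⟩, rfl⟩)
    · exact hbox z hz w hw
    · obtain ⟨i, hi⟩ := hI
      rw [hval]
      have a1 := hneg w hw hle z i hi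
      have a2 : l ≤ exp (z i) := exp_le_exp.2 (by
        have := abs_le.1 (hz i)
        linarith [le_abs_self ρ])
      linarith
  · intro z ζ Rb ε hζ hz hRb hε hε' hW
    have hRb0 : R₀ + ζ ≤ Rb := by linarith [le_max_left R₀ R₁]
    have hRb1 : R₁ + ζ ≤ Rb := by linarith [le_max_right R₀ R₁]
    obtain ⟨m1, m2, m3⟩ := hmain z ζ Rb ε hζ hz hRb0 (hε.trans (min_le_left _ _)) hε'
      fun w hw => hW w (Or.inl hw)
    have hεl : ε ≤ l / 4 := hε.trans (min_le_right _ _)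
    have hW' : ∀ w ∈ U, ((∀ i, |w.1 i| ≤ Rb) ∧ ∀ i ∈ I, w.1 i ≤ -1) → val w z ≤ ε - l := by
      intro w hw hb
      have := hW _ (Or.inr ⟨w, ⟨hw, hb.2⟩, rfl⟩) hb.1
      rw [hval] at this
      linarith
    refine ⟨fun i => (m1 i).trans (le_max_left _ _), ?_, ?_⟩
    · intro J hJ
      rcases mem_insert.1 hJ with rfl | hJ
      · by_contra hcon
        push Not at hcon
        have a1 := hW' w₁ hw₁ ⟨fun i => by
          by_cases hi : i ∈ J
          · have := hw₁b i hi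
            exact abs_le.2 ⟨by linarith, by linarith⟩
          · rw [h.supp w₁ hw₁ i hi, abs_zero]; linarith, fun i hi => by
          have := hw₁b i hi
          linarith⟩
        have a2 : ∀ i ∈ J, -(l / n) ≤ w₁.1 i * exp (z i) := by
          intro i hi
          have b1 : exp (z i) ≤ l / (n * R₁) := by
            refine le_trans (exp_le_exp.2 ?_) (hexp a (n * R₁) (by positivity))
            linarith [hcon i hi, le_max_right Θ (a + n * R₁)]
          have b2 : R₁ * exp (z i) ≤ R₁ * (l / (n * R₁)) := by gcongr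
          have b3 : R₁ * (l / (n * R₁)) = l / n := by field_simp
          nlinarith [(hw₁b i hi).1, exp_pos (z i)]
        have a3 : J.card • (-(l / n)) ≤ ∑ i ∈ J, w₁.1 i * exp (z i) :=
          card_nsmul_le_sum _ _ _ a2
        rw [nsmul_eq_mul] at a3
        have a4 : (J.card : ℝ) * (l / n) ≤ l / 4 := by
          calc (J.card : ℝ) * (l / n) ≤ ((d : ℝ) + 1) * (l / n) := by gcongr; linarith
            _ = l / 4 := by rw [hn]; field_simp
        unfold val at a1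
        rw [hdot w₁ hw₁] at a1
        linarith
      · obtain ⟨j, hj, h'⟩ := m2 J hJ
        exact ⟨j, hj, by linarith [le_max_left Θ (a + n * R₁)]⟩
    · rintro w (hw | ⟨w, ⟨hw, hle⟩, rfl⟩) hact
      · exact m3 w hw hact
      · rw [hval] at hact
        have hsmall : ∀ i ∈ I, z i ≤ -a := by
          intro i hi
          have := hneg w hw hle z i hi
          exact exp_le_exp.1 (by linarith)
        have hall := h.restrict z (fun u => (∀ i, |u i| ≤ Rb) ∧ ∀ i ∈ I, u i ≤ -1)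
          (fun u hu0 hu => ⟨fun i => by
            by_cases hi : i ∈ I
            · have a1 := abs_le.1 (hu i hi)
              have a2 := abs_le.1 (hz i)
              exact abs_le.2 ⟨by linarith, by linarith⟩
            · rw [hu0 i hi, abs_zero]; linarith, fun i hi => by
            have a1 := abs_le.1 (hu i hi)
            linarith [hsmall i hi]⟩) hW'
        intro v hv hpos
        have a1 := (h.near z ε (fun j _ => hε' j) w hw
          fun w' hw' => by linarith [hall w' hw']).2 v hv hpos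
        have a2 : ∀ j ∈ Iᶜ, |z j| ≤ Θ := by
          intro j hj
          have hj' : j ∉ I := mem_compl.1 hj
          obtain ⟨j', hj'', h'⟩ := m2 _ (hup j hj')
          rcases mem_insert.1 hj'' with rfl | hj''
          · exact abs_le.2 ⟨h', m1 _⟩
          · linarith [hsmall j' hj'']
        have a3 : z ⬝ᵥ v = ∑ i ∈ I, z i * v i + ∑ i ∈ Iᶜ, z i * v i :=
          (sum_add_sum_compl I _).symm
        have a4 : -(Θ * B) ≤ ∑ i ∈ Iᶜ, z i * v i := by
          calc -(Θ * B) ≤ -(Θ * ∑ i ∈ Iᶜ, |v i|) := by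
                apply neg_le_neg
                apply mul_le_mul_of_nonneg_left _ hΘ
                exact (sum_le_sum_of_subset_of_nonneg (subset_univ _)
                  fun i _ _ => abs_nonneg _).trans (hB v hv)
            _ = ∑ i ∈ Iᶜ, -(Θ * |v i|) := by rw [mul_sum, sum_neg_distrib]
            _ ≤ _ := by
                apply sum_le_sum
                intro i hi
                have b1 : |z i * v i| ≤ Θ * |v i| := by
                  rw [abs_mul]; exact mul_le_mul_of_nonneg_right (a2 i hi) (abs_nonneg _)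
                linarith [neg_abs_le (z i * v i)]
        change δ ≤ z ⬝ᵥ v
        linarith

lemma stage_all (D : Set (Fin d → ℝ)) (hD : D.Finite) (δ ρ : ℝ) (s : Finset (Finset (Fin d))) :
    (∀ I ∈ s, I.Nonempty ∧ ∀ j ∉ I, insert j I ∈ s) → Stage D δ ρ s := by
  refine Finset.induction_on_min_value (α := ℕ) Finset.card
    (motive := fun s => (∀ I ∈ s, I.Nonempty ∧ ∀ j ∉ I, insert j I ∈ s) → Stage D δ ρ s) s ?_ ?_
  · intro _; exact stage_empty D hD δ ρ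
  · intro a s ha hmin ih h
    apply stage_insert D hD δ ρ
    · apply ih
      intro I hI
      refine ⟨(h I (mem_insert_of_mem hI)).1, fun j hj => ?_⟩
      rcases mem_insert.1 ((h I (mem_insert_of_mem hI)).2 j hj) with h' | h'
      · have a1 := hmin I hI
        rw [← h', card_insert_of_notMem hj] at a1
        omega
      · exact h'
    · exact (h a (mem_insert_self _ _)).1
    · intro j hj
      rcases mem_insert.1 ((h a (mem_insert_self _ _)).2 j hj) with h' | h'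
      · exact absurd (h' ▸ mem_insert_self j a) hj
      · exact h'

/-- The barrier family. -/
theorem barrier (D : Set (Fin d → ℝ)) (hD : D.Finite) (δ ρ : ℝ) :
    ∃ (ρ' Rb ε₀ : ℝ) (W : Set ((Fin d → ℝ) × ℝ)), ρ ≤ ρ' ∧ 0 < ε₀ ∧
      (∀ w ∈ W, ∑ i, |w.1 i| ≤ Rb) ∧
      (∀ z : Fin d → ℝ, (∀ i, |z i| ≤ ρ) → ∀ w ∈ W, val w z ≤ 0) ∧
      ∀ z : Fin d → ℝ, (∀ i, |z i| ≤ ρ' + 1) → (∀ w ∈ W, val w z ≤ ε₀) →
        (∀ i, |z i| ≤ ρ') ∧ ∀ w ∈ W, 0 ≤ val w z → Compat D δ w.1 z := by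
  obtain ⟨Θ, R₀, ε₁, W, hΘ, hR₀, hε₁, hbox, hmain⟩ :=
    stage_all D hD δ ρ (univ.filter Finset.Nonempty) (by
      intro I hI
      exact ⟨(mem_filter.1 hI).2, fun j _ => mem_filter.2 ⟨mem_univ _, insert_nonempty _ _⟩⟩)
  set ρ' := max ρ Θ with hρ'
  have hρ0 : 0 ≤ ρ' := hΘ.trans (le_max_right _ _)
  refine ⟨ρ', d * (R₀ + (ρ' + 1)), min ε₁ (exp (-(ρ' + 1))),
    {w ∈ W | ∀ i, |w.1 i| ≤ R₀ + (ρ' + 1)}, le_max_left _ _, by positivity, ?_,
    fun z hz w hw => hbox z hz w hw.1, ?_⟩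
  · intro w hw
    calc ∑ i, |w.1 i| ≤ ∑ _i : Fin d, (R₀ + (ρ' + 1)) := sum_le_sum fun i _ => hw.2 i
      _ = _ := by simp; ring
  · intro z hz hW
    obtain ⟨m1, m2, m3⟩ := hmain z (ρ' + 1) (R₀ + (ρ' + 1)) _ (by linarith) hz le_rfl
      (min_le_left _ _) (fun j => (min_le_right _ _).trans
        (exp_le_exp.2 (abs_le.1 (hz j)).1)) fun w hw hb => hW w ⟨hw, hb⟩
    refine ⟨fun i => ?_, fun w hw => m3 w hw.1⟩
    obtain ⟨j, hj, h'⟩ := m2 {i} (mem_filter.2 ⟨mem_univ _, singleton_nonempty _⟩)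
    rw [mem_singleton.1 hj] at h'
    have := le_max_right ρ Θ
    exact abs_le.2 ⟨by linarith, by linarith [m1 i]⟩

end Crest.Agent.R92
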