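import Mathlib
import Crest.Prelude.Def_MassAction

/-! A fencing lemma for a bounded family of affine functions along a forward solution. -/

set_option autoImplicit false

namespace Crest.Agent.R92

open Real Finset Crest.AnalysisR.MassAction Filter Topology

variable {d : ℕ}

lemma dot_le_sum_abs_mul_norm (u v : Fin d → ℝ) : u ⬝ᵥ v ≤ (∑ i, |u i|) * ‖v‖ := by
  unfold dotProduct
  rw [sum_mul]
  apply sum_le_sum
  intro i _
  calc u i * v i ≤ |u i * v i| := le_abs_self _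
    _ = |u i| * |v i| := abs_mul _ _
    _ ≤ |u i| * ‖v‖ := by
      apply mul_le_mul_of_nonneg_left _ (abs_nonneg _)
      exact (Real.norm_eq_abs (v i)) ▸ norm_le_pi_norm v i

lemma sol_continuousOn {g : (Fin d → ℝ) → (Fin d → ℝ)} {x : ℝ → (Fin d → ℝ)}
    (hx : IsForwardSolution g x) : ContinuousOn x (Set.Ici 0) :=
  fun t ht => (hx t ht).continuousWithinAt

lemma fence {g : (Fin d → ℝ) → (Fin d → ℝ)} (hg : Continuous g) {x : ℝ → (Fin d → ℝ)}
    (hx : IsForwardSolution g x) {W : Set ((Fin d → ℝ) × ℝ)} {Rb : ℝ}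
    (hW : ∀ w ∈ W, ∑ i, |w.1 i| ≤ Rb) {O Q : Set (Fin d → ℝ)} (hO : IsOpen O) (hQ : IsClosed Q)
    (hQO : Q ⊆ O) {s₀ a ε₀ : ℝ} (hε₀ : 0 < ε₀) (h0 : x 0 ∈ Q)
    (h0' : ∀ w ∈ W, w.1 ⬝ᵥ x 0 - w.2 ≤ s₀)
    (h1 : ∀ t, 0 ≤ t → x t ∈ O → (∀ w ∈ W, w.1 ⬝ᵥ x t - w.2 ≤ s₀ + a * t + ε₀) →
      x t ∈ Q ∧ ∀ w ∈ W, s₀ + a * t ≤ w.1 ⬝ᵥ x t - w.2 → w.1 ⬝ᵥ g (x t) ≤ a) :
    ∀ t, 0 ≤ t → x t ∈ Q ∧ ∀ w ∈ W, w.1 ⬝ᵥ x t - w.2 ≤ s₀ + a * t := by
  intro τ hτ
  have hcont := sol_continuousOn hx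
  set Rb' := max Rb 1 with hRb'
  have hRb0 : 0 < Rb' := lt_of_lt_of_le one_pos (le_max_right _ _)
  have hdot : ∀ w ∈ W, ∀ v, w.1 ⬝ᵥ v ≤ Rb' * ‖v‖ := fun w hw v =>
    (dot_le_sum_abs_mul_norm _ _).trans
      (mul_le_mul_of_nonneg_right ((hW w hw).trans (le_max_left _ _)) (norm_nonneg _))
  have main : ∀ γ : ℝ, 0 < γ → γ * τ ≤ ε₀ / 2 →
      x τ ∈ Q ∧ ∀ w ∈ W, w.1 ⬝ᵥ x τ - w.2 ≤ s₀ + a * τ + γ * τ := by
    intro γ hγ hγτ
    set A : Set ℝ := {t | x t ∈ Q ∧ ∀ w ∈ W, w.1 ⬝ᵥ x t - w.2 ≤ s₀ + a * t + γ * t} with hA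
    have hclosed : IsClosed (A ∩ Set.Icc 0 τ) := by
      have hc : ContinuousOn x (Set.Icc 0 τ) := hcont.mono Set.Icc_subset_Ici_self
      have e : A ∩ Set.Icc 0 τ = (Set.Icc 0 τ ∩ x ⁻¹' Q) ∩ (Set.Icc 0 τ ∩ ⋂ w ∈ W,
          (Set.Icc 0 τ ∩ (fun t => w.1 ⬝ᵥ x t - w.2 - (s₀ + a * t + γ * t)) ⁻¹' Set.Iic 0)) := by
        ext t
        simp only [hA, Set.mem_inter_iff, Set.mem_ofPred_eq, Set.mem_preimage, Set.mem_iInter,
          Set.mem_Iic, sub_nonpos]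
        constructor
        · rintro ⟨⟨h1, h2⟩, h3⟩
          exact ⟨⟨h3, h1⟩, h3, fun w hw => ⟨h3, h2 w hw⟩⟩
        · rintro ⟨⟨h3, h1⟩, -, h2⟩
          exact ⟨⟨h1, fun w hw => (h2 w hw).2⟩, h3⟩
      rw [e]
      refine (hc.preimage_isClosed_of_isClosed isClosed_Icc hQ).inter (isClosed_Icc.inter ?_)
      refine isClosed_biInter fun w _ => ?_
      refine ContinuousOn.preimage_isClosed_of_isClosed ?_ isClosed_Icc isClosed_Iic
      have : ContinuousOn (fun t => w.1 ⬝ᵥ x t) (Set.Icc 0 τ) :=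
        (continuous_const.dotProduct continuous_id).comp_continuousOn hc
      exact (this.sub continuousOn_const).sub (by fun_prop)
    have hmem : (0 : ℝ) ∈ A := ⟨h0, fun w hw => by simpa using h0' w hw⟩
    have hstep : ∀ t ∈ A ∩ Set.Ico 0 τ, A ∈ 𝓝[>] t := by
      rintro t ⟨⟨htQ, htW⟩, ht0, htτ⟩
      have hsub : Set.Ioi t ⊆ Set.Ici 0 := fun s hs => le_trans ht0 (le_of_lt hs)
      have hct : ContinuousWithinAt x (Set.Ioi t) t := (hcont t ht0).mono hsub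
      have hd : HasDerivWithinAt x (g (x t)) (Set.Ioi t) t := (hx t ht0).mono hsub
      set κ := γ / (2 * Rb') with hκ
      have hκ0 : 0 < κ := by positivity
      have e1 : ∀ᶠ s in 𝓝[>] t, x s ∈ O := hct (hO.mem_nhds (hQO htQ))
      have e2 : ∀ᶠ s in 𝓝[>] t, ‖x s - x t - (s - t) • g (x t)‖ ≤ κ * ‖s - t‖ :=
        (hasDerivWithinAt_iff_isLittleO.1 hd).bound hκ0
      have e3 : ∀ᶠ s in 𝓝[>] t, ‖g (x t) - g (x s)‖ ≤ κ := by
        have hc' : ContinuousWithinAt (fun s => ‖g (x t) - g (x s)‖) (Set.Ioi t) t :=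
          (continuousWithinAt_const.sub (hg.continuousAt.comp_continuousWithinAt hct)).norm
        have : ∀ᶠ s in 𝓝[>] t, ‖g (x t) - g (x s)‖ < κ :=
          hc'.tendsto.eventually_lt_const (by simpa using hκ0)
        exact this.mono fun s hs => hs.le
      have e4 : ∀ᶠ s in 𝓝[>] t, Rb' * ‖x s - x t‖ - a * (s - t) < ε₀ / 2 := by
        have hc' : ContinuousWithinAt (fun s => Rb' * ‖x s - x t‖ - a * (s - t)) (Set.Ioi t) t :=
          (continuousWithinAt_const.mul (hct.sub continuousWithinAt_const).norm).sub (by fun_prop)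
        exact hc'.tendsto.eventually_lt_const (by simpa using hε₀)
      filter_upwards [e1, e2, e3, e4, self_mem_nhdsWithin] with s f1 f2 f3 f4 f5
      have hts : t < s := f5
      have hγt : γ * t ≤ ε₀ / 2 := le_trans (by gcongr) hγτ
      obtain ⟨g1, g2⟩ := h1 s (by linarith) f1 (by
        intro w hw
        have a1 := htW w hw
        have a2 := hdot w hw (x s - x t)
        rw [dotProduct_sub] at a2
        linarith)
      refine ⟨g1, fun w hw => ?_⟩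
      by_cases hact : s₀ + a * s ≤ w.1 ⬝ᵥ x s - w.2
      · have a1 := htW w hw
        have a2 := g2 w hw hact
        have a3 := hdot w hw (x s - x t - (s - t) • g (x t))
        have a4 := hdot w hw (g (x t) - g (x s))
        rw [dotProduct_sub, dotProduct_sub, dotProduct_smul, smul_eq_mul] at a3
        rw [dotProduct_sub] at a4
        rw [Real.norm_eq_abs, abs_of_pos (by linarith : 0 < s - t)] at f2
        have a5 : Rb' * ‖x s - x t - (s - t) • g (x t)‖ ≤ Rb' * (κ * (s - t)) := by gcongr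
        have a6 : Rb' * ‖g (x t) - g (x s)‖ ≤ Rb' * κ := by gcongr
        have a7 : Rb' * κ = γ / 2 := by rw [hκ]; field_simp
        have a8 : w.1 ⬝ᵥ g (x t) ≤ a + γ / 2 := by linarith
        have a9 : (s - t) * (w.1 ⬝ᵥ g (x t)) ≤ (s - t) * (a + γ / 2) :=
          mul_le_mul_of_nonneg_left a8 (by linarith)
        have a10 : Rb' * (κ * (s - t)) = γ / 2 * (s - t) := by rw [← mul_assoc, a7]
        nlinarith
      · have : 0 ≤ γ * s := mul_nonneg hγ.le (by linarith)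
        linarith [not_le.1 hact]
    exact hclosed.Icc_subset_of_forall_mem_nhdsWithin hmem hstep ⟨hτ, le_rfl⟩
  have hγ0 : ∀ ε : ℝ, 0 < ε → ∃ γ : ℝ, 0 < γ ∧ γ * τ ≤ ε₀ / 2 ∧ γ * τ ≤ ε := by
    intro ε hε
    refine ⟨min (ε₀ / 2) ε / (τ + 1), by positivity, ?_, ?_⟩
    · rw [div_mul_eq_mul_div, div_le_iff₀ (by linarith)]
      have := min_le_left (ε₀ / 2) ε
      have : 0 < min (ε₀ / 2) ε := by positivity
      nlinarith
    · rw [div_mul_eq_mul_div, div_le_iff₀ (by linarith)]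
      have := min_le_right (ε₀ / 2) ε
      have : 0 < min (ε₀ / 2) ε := by positivity
      nlinarith
  constructor
  · obtain ⟨γ, h1, h2, -⟩ := hγ0 1 one_pos
    exact (main γ h1 h2).1
  · intro w hw
    apply le_of_forall_pos_le_add
    intro ε hε
    obtain ⟨γ, h1, h2, h3⟩ := hγ0 ε hε
    linarith [(main γ h1 h2).2 w hw]

end Crest.Agent.R92
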