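import Mathlib
import Crest.Prelude.Def_MassAction

/-! The flux inequality: a vector ordering the complexes like `log x` (with a margin) has
non-positive pairing with a weakly reversible mass-action field. -/

set_option autoImplicit false

namespace Crest.Agent.R92

open Real Finset Crest.AnalysisR.MassAction

variable {d : ℕ}

/-- a complex as a real vector -/
def cx (y : Fin d → ℕ) : Fin d → ℝ := fun i => (y i : ℝ)

lemma reactionVector_eq (r : (Fin d → ℕ) × (Fin d → ℕ)) : reactionVector r = cx r.2 - cx r.1 := rfl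

lemma monomial_eq (z : Fin d → ℝ) (y : Fin d → ℕ) : ∏ i, exp (z i) ^ y i = exp (z ⬝ᵥ cx y) := by
  unfold dotProduct cx
  rw [exp_sum]
  apply prod_congr rfl
  intro i _
  rw [mul_comm, exp_nat_mul]

lemma crossing {R : Network d} (φ : (Fin d → ℕ) → ℝ) {w y : Fin d → ℕ}
    (h : Relation.ReflTransGen (fun a b => (a, b) ∈ R) w y) {θ : ℝ} (h1 : φ y ≤ θ) :
    θ < φ w → ∃ r ∈ R, φ r.2 ≤ θ ∧ θ < φ r.1 := by
  induction h using Relation.ReflTransGen.head_induction_on with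
  | refl => intro h2; linarith
  | @head a b hab _ ih =>
    intro h2
    by_cases hb : φ b ≤ θ
    · exact ⟨(a, b), hab, hb, h2⟩
    · exact ih (lt_of_not_ge hb)

lemma covering {R : Network d} (hR : IsWeaklyReversible R) (φ : (Fin d → ℕ) → ℝ)
    {r : (Fin d → ℕ) × (Fin d → ℕ)} (hr : r ∈ R) :
    max (φ r.2 - φ r.1) 0 ≤ ∑ r' ∈ R with φ r.1 < φ r'.1, max (φ r'.1 - φ r'.2) 0 := by
  have hsub : Set.Ico (φ r.1) (φ r.2) ⊆
      ⋃ r' ∈ R.filter (fun r' => φ r.1 < φ r'.1), Set.Ico (φ r'.2) (φ r'.1) := by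
    intro θ hθ
    obtain ⟨r', hr', h1, h2⟩ := crossing φ (hR r hr) hθ.1 hθ.2
    simp only [Set.mem_iUnion]
    exact ⟨r', mem_filter.2 ⟨hr', lt_of_le_of_lt hθ.1 h2⟩, h1, h2⟩
  have h1 := (MeasureTheory.measure_mono (μ := MeasureTheory.volume) hsub).trans
    (MeasureTheory.measure_biUnion_finset_le _ _)
  simp only [Real.volume_Ico] at h1
  have h2 : ∀ a : ℝ, ENNReal.ofReal a = ENNReal.ofReal (max a 0) := fun a => by
    rcases le_total a 0 with h | h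
    · rw [max_eq_right h, ENNReal.ofReal_of_nonpos h, ENNReal.ofReal_zero]
    · rw [max_eq_left h]
  rw [h2, sum_congr rfl (fun r' _ => h2 _),
    ← ENNReal.ofReal_sum_of_nonneg (fun _ _ => le_max_right _ _)] at h1
  exact (ENNReal.ofReal_le_ofReal_iff (sum_nonneg fun _ _ => le_max_right _ _)).1 h1

lemma dot_field (R : Network d) (k : (Fin d → ℕ) × (Fin d → ℕ) → ℝ) (u z : Fin d → ℝ) :
    u ⬝ᵥ field R k (fun i => exp (z i)) =
      ∑ r ∈ R, k r * exp (z ⬝ᵥ cx r.1) * (u ⬝ᵥ cx r.2 - u ⬝ᵥ cx r.1) := by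
  unfold field
  rw [dotProduct_sum]
  apply sum_congr rfl
  intro r _
  rw [dotProduct_smul, smul_eq_mul, monomial_eq, reactionVector_eq, dotProduct_sub]

lemma flux {R : Network d} (hR : IsWeaklyReversible R) {k : (Fin d → ℕ) × (Fin d → ℕ) → ℝ}
    (hk : ∀ r ∈ R, 0 < k r) {δ : ℝ} (hδ : ∀ r ∈ R, 2 * ∑ r' ∈ R, k r' ≤ exp δ * k r)
    {u z : Fin d → ℝ}
    (hc : ∀ r ∈ R, ∀ r' ∈ R, 0 < u ⬝ᵥ (cx r.1 - cx r'.1) → δ ≤ z ⬝ᵥ (cx r.1 - cx r'.1)) :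
    u ⬝ᵥ field R k (fun i => exp (z i)) ≤
      -(1 / 2) * ∑ r ∈ R, k r * exp (z ⬝ᵥ cx r.1) * max (u ⬝ᵥ cx r.1 - u ⬝ᵥ cx r.2) 0 := by
  set φ : (Fin d → ℕ) → ℝ := fun y => u ⬝ᵥ cx y with hφ
  set down := ∑ r ∈ R, k r * exp (z ⬝ᵥ cx r.1) * max (φ r.1 - φ r.2) 0 with hdown
  have hsplit : u ⬝ᵥ field R k (fun i => exp (z i)) =
      ∑ r ∈ R, k r * exp (z ⬝ᵥ cx r.1) * max (φ r.2 - φ r.1) 0 - down := by
    rw [dot_field, hdown, ← sum_sub_distrib]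
    apply sum_congr rfl
    intro r _
    rw [← mul_sub]
    congr 1
    change φ r.2 - φ r.1 = _
    rcases le_total (φ r.1) (φ r.2) with h | h
    · rw [max_eq_left (by linarith), max_eq_right (by linarith)]; ring
    · rw [max_eq_right (by linarith), max_eq_left (by linarith)]; ring
  set W := ∑ r' ∈ R, exp (-δ) * exp (z ⬝ᵥ cx r'.1) * max (φ r'.1 - φ r'.2) 0 with hW
  have hup : ∀ r ∈ R, exp (z ⬝ᵥ cx r.1) * max (φ r.2 - φ r.1) 0 ≤ W := by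
    intro r hr
    calc exp (z ⬝ᵥ cx r.1) * max (φ r.2 - φ r.1) 0
        ≤ exp (z ⬝ᵥ cx r.1) * ∑ r' ∈ R with φ r.1 < φ r'.1, max (φ r'.1 - φ r'.2) 0 :=
          mul_le_mul_of_nonneg_left (covering hR φ hr) (exp_pos _).le
      _ = ∑ r' ∈ R with φ r.1 < φ r'.1, exp (z ⬝ᵥ cx r.1) * max (φ r'.1 - φ r'.2) 0 := by
          rw [mul_sum]
      _ ≤ ∑ r' ∈ R with φ r.1 < φ r'.1,
            exp (-δ) * exp (z ⬝ᵥ cx r'.1) * max (φ r'.1 - φ r'.2) 0 := by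
          apply sum_le_sum
          intro r' hr'
          obtain ⟨hr'R, hlt⟩ := mem_filter.1 hr'
          apply mul_le_mul_of_nonneg_right _ (le_max_right _ _)
          rw [← exp_add, exp_le_exp]
          have := hc r' hr'R r hr (by rw [dotProduct_sub]; exact sub_pos.2 hlt)
          rw [dotProduct_sub] at this
          linarith
      _ ≤ W := by
          apply sum_le_sum_of_subset_of_nonneg (filter_subset _ _)
          intro r' _ _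
          have := le_max_right (φ r'.1 - φ r'.2) 0
          positivity
  have h1 : ∑ r ∈ R, k r * exp (z ⬝ᵥ cx r.1) * max (φ r.2 - φ r.1) 0 ≤ (∑ r ∈ R, k r) * W := by
    rw [sum_mul]
    apply sum_le_sum
    intro r hr
    rw [mul_assoc]
    exact mul_le_mul_of_nonneg_left (hup r hr) (hk r hr).le
  have h2 : (∑ r ∈ R, k r) * W ≤ (1 / 2) * down := by
    rw [hW, hdown, mul_sum, mul_sum]
    apply sum_le_sum
    intro r hr
    have a1 := hδ r hr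
    have a2 : (∑ r ∈ R, k r) * exp (-δ) ≤ 1 / 2 * k r := by
      rw [exp_neg, ← div_eq_mul_inv, div_le_iff₀ (exp_pos _)]
      linarith
    have a3 : 0 ≤ exp (z ⬝ᵥ cx r.1) * max (φ r.1 - φ r.2) 0 :=
      mul_nonneg (exp_pos _).le (le_max_right _ _)
    calc (∑ r ∈ R, k r) * (exp (-δ) * exp (z ⬝ᵥ cx r.1) * max (φ r.1 - φ r.2) 0)
        = ((∑ r ∈ R, k r) * exp (-δ)) * (exp (z ⬝ᵥ cx r.1) * max (φ r.1 - φ r.2) 0) := by ring
      _ ≤ (1 / 2 * k r) * (exp (z ⬝ᵥ cx r.1) * max (φ r.1 - φ r.2) 0) :=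
          mul_le_mul_of_nonneg_right a2 a3
      _ = _ := by ring
  rw [hsplit]
  change _ ≤ -(1 / 2) * down
  linarith

lemma flux_nonpos {R : Network d} (hR : IsWeaklyReversible R)
    {k : (Fin d → ℕ) × (Fin d → ℕ) → ℝ}
    (hk : ∀ r ∈ R, 0 < k r) {δ : ℝ} (hδ : ∀ r ∈ R, 2 * ∑ r' ∈ R, k r' ≤ exp δ * k r)
    {u z : Fin d → ℝ}
    (hc : ∀ r ∈ R, ∀ r' ∈ R, 0 < u ⬝ᵥ (cx r.1 - cx r'.1) → δ ≤ z ⬝ᵥ (cx r.1 - cx r'.1)) :
    u ⬝ᵥ field R k (fun i => exp (z i)) ≤ 0 := by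
  refine (flux hR hk hδ hc).trans ?_
  have : 0 ≤ ∑ r ∈ R, k r * exp (z ⬝ᵥ cx r.1) * max (u ⬝ᵥ cx r.1 - u ⬝ᵥ cx r.2) 0 := by
    apply sum_nonneg
    intro r hr
    have := hk r hr
    have := le_max_right (u ⬝ᵥ cx r.1 - u ⬝ᵥ cx r.2) 0
    positivity
  linarith

lemma flux_neg {R : Network d} (hR : IsWeaklyReversible R)
    {k : (Fin d → ℕ) × (Fin d → ℕ) → ℝ}
    (hk : ∀ r ∈ R, 0 < k r) {δ : ℝ} (hδ : ∀ r ∈ R, 2 * ∑ r' ∈ R, k r' ≤ exp δ * k r)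
    {u z : Fin d → ℝ}
    (hc : ∀ r ∈ R, ∀ r' ∈ R, 0 < u ⬝ᵥ (cx r.1 - cx r'.1) → δ ≤ z ⬝ᵥ (cx r.1 - cx r'.1))
    (hgap : ∀ r ∈ R, u ⬝ᵥ reactionVector r = 0 ∨ 1 ≤ |u ⬝ᵥ reactionVector r|)
    (hne : ∃ r ∈ R, u ⬝ᵥ reactionVector r ≠ 0) {γ : ℝ}
    (hγ : ∀ r ∈ R, 2 * γ ≤ k r * exp (z ⬝ᵥ cx r.1)) :
    u ⬝ᵥ field R k (fun i => exp (z i)) ≤ -γ := by
  refine (flux hR hk hδ hc).trans ?_
  obtain ⟨r, hr, hlt⟩ : ∃ r ∈ R, u ⬝ᵥ cx r.2 < u ⬝ᵥ cx r.1 := by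
    obtain ⟨r, hr, hne⟩ := hne
    rw [reactionVector_eq, dotProduct_sub] at hne
    rcases lt_or_gt_of_ne (sub_ne_zero.1 hne) with h | h
    · exact ⟨r, hr, h⟩
    · obtain ⟨r', hr', h1, h2⟩ := crossing (fun y => u ⬝ᵥ cx y) (hR r hr) le_rfl h
      exact ⟨r', hr', lt_of_le_of_lt h1 h2⟩
  have h1 : 1 ≤ u ⬝ᵥ cx r.1 - u ⬝ᵥ cx r.2 := by
    rcases hgap r hr with h | h
    · rw [reactionVector_eq, dotProduct_sub] at h; linarith
    · rw [reactionVector_eq, dotProduct_sub, abs_of_neg (by linarith)] at h; linarith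
  have h2 : k r * exp (z ⬝ᵥ cx r.1) * max (u ⬝ᵥ cx r.1 - u ⬝ᵥ cx r.2) 0 ≤
      ∑ r ∈ R, k r * exp (z ⬝ᵥ cx r.1) * max (u ⬝ᵥ cx r.1 - u ⬝ᵥ cx r.2) 0 := by
    apply single_le_sum (f := fun r => k r * exp (z ⬝ᵥ cx r.1) *
      max (u ⬝ᵥ cx r.1 - u ⬝ᵥ cx r.2) 0) _ hr
    intro r hr
    have := hk r hr
    have := le_max_right (u ⬝ᵥ cx r.1 - u ⬝ᵥ cx r.2) 0
    positivity
  have h3 := hγ r hr
  have h4 : 0 < k r * exp (z ⬝ᵥ cx r.1) := mul_pos (hk r hr) (exp_pos _)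
  rw [max_eq_left (by linarith)] at h2
  nlinarith

lemma exists_delta (R : Network d) {k : (Fin d → ℕ) × (Fin d → ℕ) → ℝ} (hk : ∀ r ∈ R, 0 < k r) :
    ∃ δ : ℝ, ∀ r ∈ R, 2 * ∑ r' ∈ R, k r' ≤ exp δ * k r := by
  refine ⟨∑ r ∈ R, (2 * ∑ r' ∈ R, k r') / k r, fun r hr => ?_⟩
  have hs : 0 ≤ 2 * ∑ r' ∈ R, k r' := by
    have := sum_nonneg fun r' hr' => (hk r' hr').le
    linarith
  have h1 : (2 * ∑ r' ∈ R, k r') / k r ≤ ∑ r ∈ R, (2 * ∑ r' ∈ R, k r') / k r :=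
    single_le_sum (f := fun r => (2 * ∑ r' ∈ R, k r') / k r)
      (fun r' hr' => div_nonneg hs (hk r' hr').le) hr
  rw [← div_le_iff₀ (hk r hr)]
  linarith [add_one_le_exp (∑ r ∈ R, (2 * ∑ r' ∈ R, k r') / k r)]

end Crest.Agent.R92
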