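import Mathlib
import Crest.Prelude.Def_MassAction
import Crest.Agent.R92.Fence

/-! ODE facts: global forward solutions of bounded Lipschitz fields, uniqueness, invariance of
stoichiometric classes, and the Birch-type compactness. -/

set_option autoImplicit false

namespace Crest.Agent.R92

open Real Finset Crest.AnalysisR.MassAction Filter Topology NNReal

variable {d : ℕ}

lemma sol_right {g : (Fin d → ℝ) → (Fin d → ℝ)} {x : ℝ → (Fin d → ℝ)}
    (hx : IsForwardSolution g x) {t : ℝ} (ht : 0 ≤ t) :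
    HasDerivWithinAt x (g (x t)) (Set.Ici t) t :=
  (hx t ht).mono (Set.Ici_subset_Ici.2 ht)

lemma exists_forward {g : (Fin d → ℝ) → (Fin d → ℝ)} {K L : ℝ≥0} (hl : LipschitzWith K g)
    (hb : ∀ x, ‖g x‖ ≤ L) (x₀ : Fin d → ℝ) : ∃ x, IsForwardSolution g x ∧ x 0 = x₀ := by
  have hloc : ∀ n : ℕ, ∃ α : ℝ → (Fin d → ℝ), α 0 = x₀ ∧
      ∀ t ∈ Set.Icc (0 : ℝ) n, HasDerivWithinAt α (g (α t)) (Set.Icc (0 : ℝ) n) t := by
    intro n
    have hpl : IsPicardLindelof (fun _ => g) (tmin := 0) (tmax := n)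
        ⟨0, le_rfl, Nat.cast_nonneg n⟩ x₀ (L * n) 0 L K :=
      IsPicardLindelof.of_time_independent (fun x _ => hb x) hl.lipschitzOnWith (by simp)
    exact hpl.exists_eq_forall_mem_Icc_hasDerivWithinAt₀
  choose α hα0 hα using hloc
  have hright : ∀ n : ℕ, ∀ t ∈ Set.Ico (0 : ℝ) n, HasDerivWithinAt (α n) (g (α n t)) (Set.Ici t) t := by
    intro n t ht
    exact (hα n t ⟨ht.1, ht.2.le⟩).mono_of_mem_nhdsWithin
      (mem_of_superset (Icc_mem_nhdsGE ht.2) (Set.Icc_subset_Icc_left ht.1))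
  have huniq : ∀ n m : ℕ, ∀ t : ℝ, 0 ≤ t → t ≤ n → t ≤ m → α n t = α m t := by
    intro n m t h0 hn hm
    have c1 : ContinuousOn (α n) (Set.Icc 0 t) :=
      (HasDerivWithinAt.continuousOn (hα n)).mono (Set.Icc_subset_Icc_right hn)
    have c2 : ContinuousOn (α m) (Set.Icc 0 t) :=
      (HasDerivWithinAt.continuousOn (hα m)).mono (Set.Icc_subset_Icc_right hm)
    exact ODE_solution_unique (v := fun _ => g) (fun _ => hl) c1
      (fun s hs => hright n s ⟨hs.1, lt_of_lt_of_le hs.2 hn⟩) c2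
      (fun s hs => hright m s ⟨hs.1, lt_of_lt_of_le hs.2 hm⟩) (by rw [hα0, hα0]) ⟨h0, le_rfl⟩
  refine ⟨fun t => α ⌈t⌉₊ t, fun t ht => ?_, by simp [hα0]⟩
  set N : ℕ := ⌈t⌉₊ + 1 with hN
  have htN : t < N := by rw [hN]; push_cast; linarith [Nat.le_ceil t]
  have hmem : Set.Icc (0 : ℝ) N ∈ 𝓝[Set.Ici 0] t := by
    rw [← Set.Ici_inter_Iic]
    exact inter_mem_nhdsWithin _ (Iic_mem_nhds htN)
  have h1 := (hα N t ⟨ht, htN.le⟩).mono_of_mem_nhdsWithin hmem
  have h2 : α ⌈t⌉₊ t = α N t := huniq _ _ t ht (Nat.le_ceil t) htN.le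
  have h3 : (fun t => α ⌈t⌉₊ t) =ᶠ[𝓝[Set.Ici 0] t] α N := by
    filter_upwards [hmem] with s hs
    exact huniq _ _ s hs.1 (Nat.le_ceil s) hs.2
  have h4 := h1.congr_of_eventuallyEq h3 h2
  simpa only [h2] using h4

lemma field_contDiff (R : Network d) (k : (Fin d → ℕ) × (Fin d → ℕ) → ℝ) :
    ContDiff ℝ 1 (field R k) := by
  unfold field
  apply ContDiff.sum
  intro r _
  apply ContDiff.smul_const
  apply contDiff_const.mul
  apply contDiff_prod
  intro i _
  exact (contDiff_apply ℝ ℝ i).pow _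

lemma field_mem (R : Network d) (k : (Fin d → ℕ) × (Fin d → ℕ) → ℝ) (x : Fin d → ℝ) :
    field R k x ∈ stoichSubspace R := by
  unfold field
  apply Submodule.sum_mem
  intro r hr
  exact Submodule.smul_mem _ _ (Submodule.subset_span ⟨r, hr, rfl⟩)

lemma sub_mem_stoich {R : Network d} {k : (Fin d → ℕ) × (Fin d → ℕ) → ℝ} {x : ℝ → (Fin d → ℝ)}
    (hx : IsForwardSolution (field R k) x) {t : ℝ} (ht : 0 ≤ t) :
    x t - x 0 ∈ stoichSubspace R := by
  by_contra hcon
  obtain ⟨f, hf, hle⟩ := Submodule.exists_le_ker_of_notMem hcon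
  set F := LinearMap.toContinuousLinearMap f with hF
  have hc : ContinuousOn (fun s => F (x s)) (Set.Icc 0 t) :=
    F.continuous.comp_continuousOn ((sol_continuousOn hx).mono Set.Icc_subset_Ici_self)
  have hd : ∀ s ∈ Set.Ico 0 t, HasDerivWithinAt (fun s => F (x s)) 0 (Set.Ici s) s := by
    intro s hs
    have h1 := F.hasFDerivAt.comp_hasDerivWithinAt s (sol_right hx hs.1)
    have h2 : F (field R k (x s)) = 0 := hle (field_mem R k _)
    rw [h2] at h1
    exact h1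
  have := constant_of_has_deriv_right_zero hc hd t ⟨ht, le_rfl⟩
  apply hf
  rw [map_sub]
  exact sub_eq_zero.2 this

/-- clamping to a box -/
noncomputable def clamp (a b : ℝ) (x : Fin d → ℝ) : Fin d → ℝ := fun i => max a (min b (x i))

lemma clamp_lipschitz (a b : ℝ) : LipschitzWith 1 (clamp (d := d) a b) := by
  apply LipschitzWith.of_dist_le_mul
  intro x y
  rw [NNReal.coe_one, one_mul, dist_pi_le_iff dist_nonneg]
  intro i
  refine le_trans ?_ (dist_le_pi_dist x y i)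
  have := ((LipschitzWith.id.const_min b).const_max a).dist_le_mul (x i) (y i)
  simpa [clamp] using this

lemma clamp_mem {a b : ℝ} (hab : a ≤ b) (x : Fin d → ℝ) :
    clamp a b x ∈ Set.Icc (fun _ : Fin d => a) (fun _ => b) :=
  ⟨fun _ => le_max_left _ _, fun _ => max_le hab (min_le_left _ _)⟩

lemma clamp_eq {a b : ℝ} {x : Fin d → ℝ} (hx : ∀ i, a ≤ x i ∧ x i ≤ b) : clamp a b x = x := by
  funext i
  simp [clamp, hx i]

lemma exists_truncated {f : (Fin d → ℝ) → (Fin d → ℝ)} (hf : ContDiff ℝ 1 f) {a b : ℝ}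
    (hab : a ≤ b) (x₀ : Fin d → ℝ) :
    ∃ g : (Fin d → ℝ) → (Fin d → ℝ), Continuous g ∧ (∀ y, (∀ i, a ≤ y i ∧ y i ≤ b) → g y = f y) ∧
      ∃ x, IsForwardSolution g x ∧ x 0 = x₀ := by
  obtain ⟨K, hK⟩ := hf.contDiffOn.exists_lipschitzOnWith one_ne_zero
    (convex_Icc (fun _ : Fin d => a) (fun _ => b)) isCompact_Icc
  obtain ⟨L, hL⟩ := (isCompact_Icc (a := fun _ : Fin d => a) (b := fun _ => b)).exists_bound_of_continuousOn
    hf.continuous.continuousOn
  have hl : LipschitzWith (K * 1) (f ∘ clamp a b) := by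
    rw [← lipschitzOnWith_univ]
    exact hK.comp (clamp_lipschitz a b).lipschitzOnWith fun y _ => clamp_mem hab y
  refine ⟨f ∘ clamp a b, hl.continuous, fun y hy => by simp [clamp_eq hy], ?_⟩
  exact exists_forward (L := L.toNNReal) hl
    (fun y => (hL _ (clamp_mem hab y)).trans (Real.le_coe_toNNReal L)) x₀

lemma unique_in_box {f : (Fin d → ℝ) → (Fin d → ℝ)} (hf : ContDiff ℝ 1 f) {a b : Fin d → ℝ}
    {x x' : ℝ → (Fin d → ℝ)} (hx : IsForwardSolution f x) (hx' : IsForwardSolution f x')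
    (h1 : ∀ t, 0 ≤ t → x t ∈ Set.Icc a b) (h2 : ∀ t, 0 ≤ t → x' t ∈ Set.Icc a b)
    (h0 : x 0 = x' 0) : ∀ t, 0 ≤ t → x t = x' t := by
  obtain ⟨K, hK⟩ := hf.contDiffOn.exists_lipschitzOnWith one_ne_zero (convex_Icc a b) isCompact_Icc
  intro t ht
  exact ODE_solution_unique_of_mem_Icc_right (v := fun _ => f) (s := fun _ => Set.Icc a b)
    (fun _ _ => hK) ((sol_continuousOn hx).mono Set.Icc_subset_Ici_self)
    (fun s hs => sol_right hx hs.1) (fun s hs => h1 s hs.1)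
    ((sol_continuousOn hx').mono Set.Icc_subset_Ici_self)
    (fun s hs => sol_right hx' hs.1) (fun s hs => h2 s hs.1) h0 ⟨ht, le_rfl⟩

lemma birch_one {c E : ℝ} (hc : 0 < c) (hE : 0 ≤ E) :
    (∃ m : ℝ, 0 ≤ m ∧ ∀ z : ℝ, -m ≤ (exp z - c) * z - E * (exp z + c)) ∧
    ∀ s : ℝ, ∃ ρ : ℝ, ∀ z : ℝ, (exp z - c) * z - E * (exp z + c) ≤ s → |z| ≤ ρ := by
  -- lower bound: `h z ≥ c |z| / 2 - m`
  obtain ⟨m, hm, hlow⟩ : ∃ m : ℝ, 0 ≤ m ∧
      ∀ z : ℝ, c * |z| - m ≤ (exp z - c) * z - E * (exp z + c) := by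
    refine ⟨exp (E + 2 * c) + 2 * E + E * c + 1, by positivity, fun z => ?_⟩
    rcases le_total z 0 with hz | hz
    · rw [abs_of_nonpos hz]
      have a1 : exp z ≤ 1 := exp_le_one_iff.2 hz
      have a2 : -1 ≤ exp z * z := by
        have b1 := add_one_le_exp (-z)
        have b2 : exp z * exp (-z) = 1 := by rw [← exp_add]; simp
        nlinarith [exp_pos z]
      nlinarith [exp_pos (E + 2 * c), exp_pos z]
    · rw [abs_of_nonneg hz]
      -- exp z * (z - E) - 2 c z ≥ exp z * (z - E - 2c) ≥ - exp (E + 2c)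
      have a1 : z ≤ exp z := by linarith [add_one_le_exp z]
      have a2 : -exp (E + 2 * c) ≤ exp z * (z - E - 2 * c) := by
        have b1 := add_one_le_exp (E + 2 * c - z)
        have b2 : exp z * exp (E + 2 * c - z) = exp (E + 2 * c) := by rw [← exp_add]; simp
        nlinarith [exp_pos z]
      nlinarith
  refine ⟨⟨m, hm, fun z => ?_⟩, fun s => ⟨(s + m) / c, fun z hz => ?_⟩⟩
  · have := hlow z
    have : 0 ≤ c * |z| := by positivity
    linarith
  · rw [le_div_iff₀ hc]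
    linarith [hlow z]

lemma birch (c : Fin d → ℝ) (hc : ∀ i, 0 < c i) {E : ℝ} (hE : 0 ≤ E) :
    ∃ ρ : ℝ, ∀ z u : Fin d → ℝ, (∀ i, |u i - z i| ≤ E) →
      u ⬝ᵥ ((fun i => exp (z i)) - c) = 0 → ∀ i, |z i| ≤ ρ := by
  choose m hm hlow using fun i => (birch_one (hc i) hE).1
  choose ρ hρ using fun i => (birch_one (hc i) hE).2 (∑ j, m j)
  refine ⟨∑ i, |ρ i|, fun z u hu h0 i => ?_⟩
  set h : Fin d → ℝ := fun j => (exp (z j) - c j) * z j - E * (exp (z j) + c j) with hh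
  have h1 : ∑ j, h j ≤ 0 := by
    rw [← h0]
    apply sum_le_sum
    intro j _
    have a1 := abs_le.1 (hu j)
    have a2 := exp_pos (z j)
    have a3 := hc j
    simp only [hh, Pi.sub_apply]
    nlinarith [mul_nonneg a2.le (sub_nonneg.2 a1.1), mul_nonneg a3.le (sub_nonneg.2 a1.2)]
  have h2 : h i + m i ≤ ∑ j, (h j + m j) :=
    single_le_sum (f := fun j => h j + m j) (fun j _ => by linarith [hlow j (z j)]) (mem_univ i)
  rw [sum_add_distrib] at h2
  have h3 := hρ i (z i) (by linarith [hm i])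
  exact h3.trans ((le_abs_self _).trans
    (single_le_sum (f := fun j => |ρ j|) (fun j _ => abs_nonneg _) (mem_univ i)))

end Crest.Agent.R92
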