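import Mathlib
import Crest.Agent.R92.Barrier
import Crest.Agent.R92.Flux
import Crest.Agent.R92.ODE

/-! Invariant compact convex sets and absorption for weakly reversible mass-action systems. -/

set_option autoImplicit false

namespace Crest.Agent.R92

open Real Finset Crest.AnalysisR.MassAction Filter Topology

variable {d : ℕ}

/-- the logarithmic box -/
def Box (d : ℕ) (ρ : ℝ) : Set (Fin d → ℝ) := Set.Icc (fun _ => exp (-ρ)) (fun _ => exp ρ)

lemma mem_Box {ρ : ℝ} {x : Fin d → ℝ} : x ∈ Box d ρ ↔ ∀ i, exp (-ρ) ≤ x i ∧ x i ≤ exp ρ :=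
  ⟨fun h i => ⟨h.1 i, h.2 i⟩, fun h => ⟨fun i => (h i).1, fun i => (h i).2⟩⟩

lemma exp_mem_Box {ρ : ℝ} {z : Fin d → ℝ} :
    (fun i => exp (z i)) ∈ Box d ρ ↔ ∀ i, |z i| ≤ ρ := by
  simp only [mem_Box, exp_le_exp, abs_le]

lemma Box_pos {ρ : ℝ} {x : Fin d → ℝ} (h : x ∈ Box d ρ) (i : Fin d) : 0 < x i :=
  lt_of_lt_of_le (exp_pos _) (mem_Box.1 h i).1

lemma eq_exp_log {x : Fin d → ℝ} (h : ∀ i, 0 < x i) : x = fun i => exp (log (x i)) :=
  funext fun i => (exp_log (h i)).symm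

lemma exists_Box {x : Fin d → ℝ} (h : ∀ i, 0 < x i) : ∃ ρ, 0 ≤ ρ ∧ x ∈ Box d ρ := by
  refine ⟨‖fun i => log (x i)‖, norm_nonneg _, ?_⟩
  rw [eq_exp_log h, exp_mem_Box]
  intro i
  have := norm_le_pi_norm (fun i => log (x i)) i
  simpa only [log_exp, Real.norm_eq_abs] using this

/-- the finite set of directions attached to a network -/
def dirs (R : Network d) : Set (Fin d → ℝ) :=
  (fun p : ((Fin d → ℕ) × (Fin d → ℕ)) × ((Fin d → ℕ) × (Fin d → ℕ)) => cx p.1.1 - cx p.2.1) ''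
    ((R : Set ((Fin d → ℕ) × (Fin d → ℕ))) ×ˢ (R : Set ((Fin d → ℕ) × (Fin d → ℕ)))) ∪
    reactionVector '' (R : Set ((Fin d → ℕ) × (Fin d → ℕ)))

lemma dirs_finite (R : Network d) : (dirs R).Finite :=
  ((R.finite_toSet.prod R.finite_toSet).image _).union (R.finite_toSet.image _)

lemma compat_dirs {R : Network d} {δ : ℝ} {u z : Fin d → ℝ} (h : Compat (dirs R) δ u z) :
    ∀ r ∈ R, ∀ r' ∈ R, 0 < u ⬝ᵥ (cx r.1 - cx r'.1) → δ ≤ z ⬝ᵥ (cx r.1 - cx r'.1) :=
  fun r hr r' hr' => h _ (Or.inl ⟨(r, r'), ⟨hr, hr'⟩, rfl⟩)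

theorem exists_invariant {R : Network d} (hR : IsWeaklyReversible R)
    {k : (Fin d → ℕ) × (Fin d → ℕ) → ℝ} (hk : ∀ r ∈ R, 0 < k r) (ρ : ℝ) :
    ∃ (ρ' : ℝ) (K : Set (Fin d → ℝ)), ρ ≤ ρ' ∧ Box d ρ ⊆ K ∧ K ⊆ Box d ρ' ∧ IsClosed K ∧
      Convex ℝ K ∧ ∀ g : (Fin d → ℝ) → (Fin d → ℝ), Continuous g →
        (∀ y ∈ Box d (ρ' + 1), g y = field R k y) →
        ∀ x, IsForwardSolution g x → x 0 ∈ K → ∀ t, 0 ≤ t → x t ∈ K := by
  obtain ⟨δ, hδ⟩ := exists_delta R hk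
  obtain ⟨ρ', Rb, ε₀, W, hρ, hε₀, hW, hbox, hmain⟩ := barrier (dirs R) (dirs_finite R) δ ρ
  refine ⟨ρ', Box d ρ' ∩ ⋂ w ∈ W, {x | w.1 ⬝ᵥ x - w.2 ≤ 0}, hρ, ?_, Set.inter_subset_left,
    ?_, ?_, ?_⟩
  · intro x hx
    have hx' := eq_exp_log (Box_pos hx)
    have hz : ∀ i, |log (x i)| ≤ ρ := by rw [hx'] at hx; exact exp_mem_Box.1 hx
    refine ⟨?_, ?_⟩
    · rw [hx', exp_mem_Box]; exact fun i => (hz i).trans hρ
    · simp only [Set.mem_iInter, Set.mem_ofPred_eq]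
      intro w hw
      have := hbox _ hz w hw
      unfold val at this
      rwa [← hx'] at this
  · refine isClosed_Icc.inter (isClosed_biInter fun w _ => ?_)
    exact isClosed_le ((continuous_const.dotProduct continuous_id).sub continuous_const)
      continuous_const
  · refine (convex_Icc _ _).inter (convex_iInter₂ fun w _ => ?_)
    intro x hx y hy a b ha hb hab
    simp only [Set.mem_ofPred_eq, dotProduct_add, dotProduct_smul, smul_eq_mul] at hx hy ⊢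
    have : w.2 = a * w.2 + b * w.2 := by rw [← add_mul, hab, one_mul]
    nlinarith
  · intro g hg hgf x hx h0 t ht
    set O : Set (Fin d → ℝ) := ⋂ i, {y | exp (-(ρ' + 1)) < y i ∧ y i < exp (ρ' + 1)} with hO
    have hOo : IsOpen O := isOpen_iInter_of_finite fun i =>
      (isOpen_lt continuous_const (continuous_apply i)).inter
        (isOpen_lt (continuous_apply i) continuous_const)
    have hQO : Box d ρ' ⊆ O := by
      intro y hy
      refine Set.mem_iInter.2 fun i => ⟨lt_of_lt_of_le ?_ (mem_Box.1 hy i).1,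
        lt_of_le_of_lt (mem_Box.1 hy i).2 ?_⟩ <;> apply exp_lt_exp.2 <;> linarith
    have := fence hg hx hW hOo isClosed_Icc hQO (s₀ := 0) (a := 0) hε₀ h0.1
      (fun w hw => Set.mem_iInter₂.1 h0.2 w hw) (by
        intro s hs hsO hsW
        have hB : x s ∈ Box d (ρ' + 1) := mem_Box.2 fun i =>
          ⟨(Set.mem_iInter.1 hsO i).1.le, (Set.mem_iInter.1 hsO i).2.le⟩
        have hx' := eq_exp_log (Box_pos hB)
        have hz : ∀ i, |log (x s i)| ≤ ρ' + 1 := by rw [hx'] at hB; exact exp_mem_Box.1 hB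
        obtain ⟨m1, m2⟩ := hmain _ hz (fun w hw => by
          have := hsW w hw
          unfold val
          rw [← hx']
          linarith)
        refine ⟨by rw [hx']; exact exp_mem_Box.2 m1, fun w hw hact => ?_⟩
        rw [hgf _ hB, hx']
        refine flux_nonpos hR hk hδ (compat_dirs (m2 w hw ?_))
        unfold val
        rw [← hx']
        linarith) t ht
    refine ⟨this.1, Set.mem_iInter₂.2 fun w hw => ?_⟩
    have := this.2 w hw
    simp only [Set.mem_ofPred_eq]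
    linarith

theorem exists_solution {R : Network d} (hR : IsWeaklyReversible R)
    {k : (Fin d → ℕ) × (Fin d → ℕ) → ℝ} (hk : ∀ r ∈ R, 0 < k r) {x₀ : Fin d → ℝ}
    (h : ∀ i, 0 < x₀ i) : (∃ x, IsForwardSolution (field R k) x ∧ x 0 = x₀) ∧
      ∃ ρ, ∀ x, IsForwardSolution (field R k) x → x 0 = x₀ → ∀ t, 0 ≤ t → x t ∈ Box d ρ := by
  obtain ⟨ρ, hρ0, hρ⟩ := exists_Box h
  obtain ⟨ρ', K, hρ', h1, h2, -, -, h5⟩ := exists_invariant hR hk ρ
  refine ⟨?_, ρ', fun x hx h0 t ht => h2 (h5 _ (field_contDiff R k).continuous (fun _ _ => rfl) x hx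
    (h0 ▸ h1 hρ) t ht)⟩
  obtain ⟨g, hg, hgf, x, hx, h0⟩ := exists_truncated (field_contDiff R k)
    (a := exp (-(ρ' + 1))) (b := exp (ρ' + 1)) (exp_le_exp.2 (by linarith)) x₀
  have hgf' : ∀ y ∈ Box d (ρ' + 1), g y = field R k y := fun y hy => hgf y (mem_Box.1 hy)
  refine ⟨x, fun t ht => ?_, h0⟩
  have hK := h2 (h5 g hg hgf' x hx (h0 ▸ h1 hρ) t ht)
  rw [← hgf' (x t) (mem_Box.2 fun i => ⟨le_trans (exp_le_exp.2 (by linarith)) (mem_Box.1 hK i).1,
    le_trans (mem_Box.1 hK i).2 (exp_le_exp.2 (by linarith))⟩)]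
  exact hx t ht

theorem exists_absorbing {R : Network d} (hR : IsWeaklyReversible R)
    {k : (Fin d → ℕ) × (Fin d → ℕ) → ℝ} (hk : ∀ r ∈ R, 0 < k r) {c : Fin d → ℝ}
    (hc : ∀ i, 0 < c i) : ∃ ρ₀, ∀ x, IsForwardSolution (field R k) x → x 0 ∈ positiveClass R c →
      ∃ T, 0 ≤ T ∧ x T ∈ Box d ρ₀ := by
  obtain ⟨δ, hδ⟩ := exists_delta R hk
  obtain ⟨E, U, h⟩ := key' univ (dirs R) (dirs_finite R) δ
  have hE := h.E_nonneg
  obtain ⟨ρ₀, hρ₀⟩ := birch c hc hE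
  refine ⟨ρ₀, fun x hx h0 => ?_⟩
  by_contra hcon
  push Not at hcon
  obtain ⟨ρ, hρ⟩ := (exists_solution hR hk h0.1).2
  have hB := hρ x hx rfl
  -- the decay rate
  obtain ⟨γ, hγ0, hγ⟩ : ∃ γ : ℝ, 0 < γ ∧ ∀ r ∈ R, ∀ z : Fin d → ℝ, (∀ i, |z i| ≤ ρ) →
      2 * γ ≤ k r * exp (z ⬝ᵥ cx r.1) := by
    have hfin : ((fun r => k r * exp (-(ρ * ∑ i, cx r.1 i))) '' (R : Set _) ∪ {1}).Finite :=
      (R.finite_toSet.image _).union (Set.finite_singleton _)
    obtain ⟨m, hm, hmin⟩ := Set.exists_min_image _ id hfin ⟨1, Or.inr rfl⟩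
    have hm0 : 0 < m := by
      rcases hm with ⟨r, hr, rfl⟩ | h
      · exact mul_pos (hk r hr) (exp_pos _)
      · rw [h]; exact one_pos
    refine ⟨m / 2, by positivity, fun r hr z hz => ?_⟩
    have a1 : m ≤ k r * exp (-(ρ * ∑ i, cx r.1 i)) := hmin _ (Or.inl ⟨r, hr, rfl⟩)
    have a2 : -(ρ * ∑ i, cx r.1 i) ≤ z ⬝ᵥ cx r.1 := by
      rw [mul_sum, ← sum_neg_distrib]
      apply sum_le_sum
      intro i _
      have b1 : 0 ≤ cx r.1 i := Nat.cast_nonneg _
      nlinarith [(abs_le.1 (hz i)).1]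
    have a3 := mul_le_mul_of_nonneg_left (exp_le_exp.2 a2) (hk r hr).le
    linarith
  set W : Set ((Fin d → ℝ) × ℝ) := {w ∈ U | ∀ i, |w.1 i| ≤ ρ + E} with hW
  have hWb : ∀ w ∈ W, ∑ i, |w.1 i| ≤ d * (ρ + E) := by
    intro w hw
    calc ∑ i, |w.1 i| ≤ ∑ _i : Fin d, (ρ + E) := sum_le_sum fun i _ => hw.2 i
      _ = _ := by simp; ring
  have hlog : ∀ t, 0 ≤ t → x t = (fun i => exp (log (x t i))) ∧ ∀ i, |log (x t i)| ≤ ρ := by
    intro t ht
    have hx' := eq_exp_log (Box_pos (hB t ht))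
    refine ⟨hx', ?_⟩
    have := hB t ht
    rw [hx'] at this
    exact exp_mem_Box.1 this
  set X : ℝ := ∑ i, exp (log (x 0 i)) + 1 with hX
  have hX0 : 0 < X := by positivity
  have hclose : ∀ (z u : Fin d → ℝ), (∀ i, |z i| ≤ ρ) → (∀ i ∈ univ, |u i - z i| ≤ E) →
      ∀ i, |u i| ≤ ρ + E := by
    intro z u hz hu i
    have a1 := abs_le.1 (hu i (mem_univ _))
    have a2 := abs_le.1 (hz i)
    exact abs_le.2 ⟨by linarith, by linarith⟩
  have hdec := fence (field_contDiff R k).continuous hx hWb isOpen_univ isClosed_univ subset_rfl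
    (s₀ := (E + X) * X) (a := -γ) (exp_pos (-ρ)) (Set.mem_univ _)
    (fun w hw => by
      have := h.val_le hw.1 (z := fun i => log (x 0 i)) hX0 (by linarith)
      unfold val at this
      rwa [← (hlog 0 le_rfl).1] at this) (by
      intro t ht _ hall
      refine ⟨Set.mem_univ _, fun w hw hact => ?_⟩
      obtain ⟨hx', hz⟩ := hlog t ht
      have hval : ∀ w : (Fin d → ℝ) × ℝ, val w (fun i => log (x t i)) = w.1 ⬝ᵥ x t - w.2 := by
        intro w; unfold val; rw [← hx']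
      have hall' := h.restrict (fun i => log (x t i)) (s := (E + X) * X + -γ * t + exp (-ρ))
        (fun u => ∀ i, |u i| ≤ ρ + E) (fun u _ hu => hclose _ u hz hu)
        (fun w hw hb => by rw [hval]; exact hall w ⟨hw, hb⟩)
      obtain ⟨n1, n2⟩ := h.near (fun i => log (x t i)) (exp (-ρ))
        (fun j _ => exp_le_exp.2 (abs_le.1 (hz j)).1) w hw.1
        (fun w' hw' => by rw [hval w]; linarith [hall' w' hw'])
      rw [hx']
      refine flux_neg hR hk hδ (compat_dirs n2)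
        (fun r hr => h.gap w hw.1 _ (Or.inr ⟨r, hr, rfl⟩)) ?_ (fun r hr => hγ r hr _ hz)
      by_contra hzero
      push Not at hzero
      apply hcon t ht
      rw [hx', exp_mem_Box]
      refine hρ₀ _ w.1 (fun i => n1 i (mem_univ _)) ?_
      rw [← hx']
      have hmem : x t - c ∈ stoichSubspace R := by
        have := (stoichSubspace R).add_mem (sub_mem_stoich hx ht) h0.2
        rwa [sub_add_sub_cancel] at this
      refine Submodule.span_induction (p := fun v _ => w.1 ⬝ᵥ v = 0) ?_ ?_ ?_ ?_ hmem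
      · rintro _ ⟨r, hr, rfl⟩; exact hzero r hr
      · simp
      · intro a b _ _ ha hb; rw [dotProduct_add, ha, hb, add_zero]
      · intro a b _ hb; rw [dotProduct_smul, hb, smul_zero])
  obtain ⟨w₀, hw₀, hw₀'⟩ := h.exists_close (fun i => log (x 0 i))
  have hw₀W : w₀ ∈ W := ⟨hw₀, hclose _ _ (hlog 0 le_rfl).2 hw₀'⟩
  set C : ℝ := (∑ i, |w₀.1 i|) * exp ρ + w₀.2 + (E + X) * X with hC
  have hC0 : 0 ≤ C := by have := (h.cost w₀ hw₀).1; positivity
  set t : ℝ := (C + 1) / γ with ht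
  have ht0 : 0 ≤ t := by positivity
  have a1 := (hdec t ht0).2 w₀ hw₀W
  have a2 : γ * t = C + 1 := by rw [ht]; field_simp
  have a3 : -((∑ i, |w₀.1 i|) * exp ρ) ≤ w₀.1 ⬝ᵥ x t := by
    rw [sum_mul, ← sum_neg_distrib]
    apply sum_le_sum
    intro i _
    have b1 := (mem_Box.1 (hB t ht0) i).2
    have b2 := Box_pos (hB t ht0) i
    nlinarith [neg_abs_le (w₀.1 i), abs_nonneg (w₀.1 i)]
  linarith

end Crest.Agent.R92
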